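import Crest.Agent.R246.Fub

/-!
# Row 246, block G1: the area formula for embedded patches
-/

set_option autoImplicit false
set_option linter.unusedSectionVars false

open MeasureTheory Metric Filter Topology Set Module
open scoped RealInnerProductSpace ENNReal ContDiff Real NNReal

noncomputable section

namespace Crest.Agent.R246

variable {E : Type} [NormedAddCommGroup E] [InnerProductSpace ℝ E] [FiniteDimensional ℝ E]
  [MeasurableSpace E] [BorelSpace E]
variable {H : Type} [NormedAddCommGroup H] [InnerProductSpace ℝ H] [FiniteDimensional ℝ H]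
  [MeasurableSpace H] [BorelSpace H]

/-- comparison of the measures of two images -/
theorem muHE_image_le {α F F' : Type*} [NormedAddCommGroup F] [MeasurableSpace F] [BorelSpace F]
    [NormedAddCommGroup F'] [MeasurableSpace F'] [BorelSpace F'] {f : α → F} {g : α → F'}
    {s : Set α} {L : ℝ} (hL : 0 ≤ L) (h : ∀ z ∈ s, ∀ z' ∈ s, ‖f z - f z'‖ ≤ L * ‖g z - g z'‖)
    (k : ℕ) : (μHE[k] : Measure F) (f '' s) ≤ ENNReal.ofReal (L ^ k) * μHE[k] (g '' s) := by
  rcases s.eq_empty_or_nonempty with rfl | ⟨z₀, hz₀⟩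
  · simp
  have : Nonempty α := ⟨z₀⟩
  have h1 : ∀ y ∈ g '' s, Function.invFunOn g s y ∈ s ∧ g (Function.invFunOn g s y) = y :=
    fun y hy => Function.invFunOn_pos hy
  have hlip : LipschitzOnWith L.toNNReal (f ∘ Function.invFunOn g s) (g '' s) := by
    refine LipschitzOnWith.of_dist_le_mul fun y hy y' hy' => ?_
    have := h _ (h1 y hy).1 _ (h1 y' hy').1
    rw [(h1 y hy).2, (h1 y' hy').2] at this
    simpa [dist_eq_norm, Real.coe_toNNReal _ hL] using this
  have hsub : f '' s ⊆ (f ∘ Function.invFunOn g s) '' (g '' s) := by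
    rintro _ ⟨z, hz, rfl⟩
    refine ⟨g z, ⟨z, hz, rfl⟩, ?_⟩
    have h2 := h1 (g z) ⟨z, hz, rfl⟩
    have := h _ h2.1 _ hz
    rw [h2.2, sub_self, norm_zero, mul_zero] at this
    exact sub_eq_zero.1 (norm_le_zero_iff.1 this)
  have h3 := hlip.hausdorffMeasure_image_le (d := (k : ℝ)) (Nat.cast_nonneg k)
  refine (measure_mono hsub).trans ?_
  simp only [Measure.euclideanHausdorffMeasure_def, Measure.smul_apply, ENNReal.smul_def,
    smul_eq_mul]
  rw [mul_left_comm]
  gcongr
  rw [ENNReal.rpow_natCast] at h3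
  rw [ENNReal.ofReal_pow hL]
  exact h3

/-- a local inequality between measures is global -/
theorem measure_le_of_local {X : Type*} [TopologicalSpace X] [SecondCountableTopology X]
    [MeasurableSpace X] [OpensMeasurableSpace X] {μ ν : Measure X} {O : Set X}
    (h : ∀ x ∈ O, ∃ W ∈ 𝓝 x, ∀ s ⊆ W, s ⊆ O → MeasurableSet s → μ s ≤ ν s) {S : Set X}
    (hS : S ⊆ O) (hm : MeasurableSet S) : μ S ≤ ν S := by
  choose! W hW hle using h
  obtain ⟨t, htO, htc, hcov⟩ := TopologicalSpace.countable_cover_nhdsWithin (s := O)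
    (f := fun x => interior (W x)) fun x hx =>
      mem_nhdsWithin_of_mem_nhds (interior_mem_nhds.2 (hW x hx))
  obtain ⟨u, hu⟩ := ((htc.image fun x => interior (W x)).insert ∅).exists_eq_range
    (insert_nonempty _ _)
  have hu1 : ∀ n, IsOpen (u n) ∧ ∀ s ⊆ u n, s ⊆ O → MeasurableSet s → μ s ≤ ν s := by
    intro n
    have : u n ∈ insert ∅ ((fun x => interior (W x)) '' t) := hu ▸ mem_range_self n
    rcases this with h0 | ⟨x, hx, h0⟩
    · rw [h0]
      exact ⟨isOpen_empty, fun s hs _ _ => by simp [subset_empty_iff.1 hs]⟩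
    · rw [← h0]
      exact ⟨isOpen_interior, fun s hs => hle x (htO hx) s (hs.trans interior_subset)⟩
  have hSu : S = ⋃ n, S ∩ disjointed u n := by
    rw [← inter_iUnion, iUnion_disjointed, eq_comm, inter_eq_left]
    intro y hy
    obtain ⟨x, hx, hyx⟩ := mem_iUnion₂.1 (hcov (hS hy))
    obtain ⟨n, hn⟩ : interior (W x) ∈ range u := hu ▸ mem_insert_of_mem _ ⟨x, hx, rfl⟩
    exact mem_iUnion.2 ⟨n, hn ▸ hyx⟩
  have hmd : ∀ n, MeasurableSet (S ∩ disjointed u n) := fun n =>
    hm.inter (MeasurableSet.disjointed (fun n => (hu1 n).1.measurableSet) n)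
  have hd : Pairwise (Function.onFun Disjoint fun n => S ∩ disjointed u n) := fun i j hij =>
    (disjoint_disjointed u hij).mono inter_subset_right inter_subset_right
  rw [hSu, measure_iUnion hd hmd, measure_iUnion hd hmd]
  exact ENNReal.tsum_le_tsum fun n => (hu1 n).2 _
    (inter_subset_right.trans (disjointed_subset u n)) (inter_subset_left.trans hS) (hmd n)

theorem continuous_normDet :
    Continuous fun A : H →L[ℝ] E => LinearMap.normDet (A : H →ₗ[ℝ] E) := by
  have h : (fun A : H →L[ℝ] E => LinearMap.normDet (A : H →ₗ[ℝ] E)) = fun A =>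
      √(Matrix.gram ℝ (fun i => A (stdOrthonormalBasis ℝ H i))).det := by
    ext A
    have := (A : H →ₗ[ℝ] E).normDet_sq_eq_det_gram (stdOrthonormalBasis ℝ H)
    simp only [RCLike.ofReal_real_eq_id, id, ContinuousLinearMap.coe_coe] at this
    rw [← this, Real.sqrt_sq (LinearMap.normDet_nonneg _)]
  rw [h]
  refine Continuous.sqrt (Continuous.matrix_det (continuous_matrix fun i j => ?_))
  simp only [Matrix.gram_apply]
  fun_prop

theorem normDet_pos {A : H →L[ℝ] E} (hA : Function.Injective A) :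
    0 < LinearMap.normDet (A : H →ₗ[ℝ] E) := by
  refine lt_of_le_of_ne (LinearMap.normDet_nonneg _) fun h => ?_
  exact LinearMap.normDet_eq_zero_iff_ker_ne_bot.1 h.symm (LinearMap.ker_eq_bot.2 hA)

theorem area_local {G : H → E} {O : Set H} (hO : IsOpen O) (hG : ContDiffOn ℝ 1 G O) {x₀ : H}
    (hx : x₀ ∈ O) (hD : Function.Injective (fderiv ℝ G x₀)) {L : ℝ} (hL : 1 < L) :
    ∃ W ∈ 𝓝 x₀, ∀ s ⊆ W, MeasurableSet s →
      (μHE[finrank ℝ H] : Measure E) (G '' s) ≤ ENNReal.ofReal (L ^ (finrank ℝ H + 1)) *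
        ∫⁻ x in s, ENNReal.ofReal (LinearMap.normDet (fderiv ℝ G x : H →ₗ[ℝ] E)) ∧
      ∫⁻ x in s, ENNReal.ofReal (LinearMap.normDet (fderiv ℝ G x : H →ₗ[ℝ] E)) ≤
        ENNReal.ofReal (L ^ (finrank ℝ H + 1)) * (μHE[finrank ℝ H] : Measure E) (G '' s) := by
  set A := fderiv ℝ G x₀ with hA
  have hL0 : 0 < L := by linarith
  obtain ⟨K, hK0, hK⟩ := LinearMap.exists_antilipschitzWith (A : H →ₗ[ℝ] E)
    (LinearMap.ker_eq_bot.2 hD)
  have hK' : ∀ v, ‖v‖ ≤ K * ‖A v‖ := fun v => by simpa using hK.le_mul_dist v 0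
  have hη : 0 < 1 - L⁻¹ := sub_pos.2 (inv_lt_one_of_one_lt₀ hL)
  have hK0' : (0 : ℝ) < K := hK0
  have hs := (hG.contDiffAt (hO.mem_nhds hx)).hasStrictFDerivAt one_ne_zero
  obtain ⟨W, hW, hap⟩ := hs.approximates_deriv_on_nhds
    (c := ⟨(1 - L⁻¹) / K, by positivity⟩) (Or.inr (by
      rw [← NNReal.coe_pos]; exact div_pos hη hK0'))
  have hJc : ContinuousAt (fun x => LinearMap.normDet (fderiv ℝ G x : H →ₗ[ℝ] E)) x₀ :=
    continuous_normDet.continuousAt.comp
      ((hG.continuousOn_fderiv_of_isOpen hO le_rfl).continuousAt (hO.mem_nhds hx))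
  set J₀ := LinearMap.normDet (A : H →ₗ[ℝ] E) with hJ₀
  have hJ : 0 < J₀ := normDet_pos hD
  have h1 : ∀ᶠ x in 𝓝 x₀, LinearMap.normDet (fderiv ℝ G x : H →ₗ[ℝ] E) ≤ L * J₀ :=
    (hJc.eventually (gt_mem_nhds (show J₀ < L * J₀ by nlinarith))).mono fun x hx => hx.le
  have h2 : ∀ᶠ x in 𝓝 x₀, J₀ ≤ L * LinearMap.normDet (fderiv ℝ G x : H →ₗ[ℝ] E) :=
    ((continuousAt_const.mul hJc).eventually
      (lt_mem_nhds (show J₀ < L * J₀ by nlinarith))).mono fun x hx => hx.le
  refine ⟨_, inter_mem hW (h1.and h2), fun s hs hm => ?_⟩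
  have hb : ∀ x ∈ s, ∀ y ∈ s, ‖G x - G y - (A x - A y)‖ ≤ (1 - L⁻¹) * ‖A x - A y‖ := by
    intro x hx y hy
    have h3 := hap x (hs hx).1 y (hs hy).1
    rw [← map_sub]
    refine h3.trans ?_
    have := hK' (x - y)
    change (1 - L⁻¹) / K * ‖x - y‖ ≤ _
    rw [div_mul_eq_mul_div, div_le_iff₀ hK0']
    nlinarith
  have hLL : 2 - L⁻¹ ≤ L := by
    have : L * L⁻¹ = 1 := mul_inv_cancel₀ hL0.ne'
    nlinarith [sq_nonneg (L - 1), inv_pos.2 hL0]
  have hu : (μHE[finrank ℝ H] : Measure E) (G '' s) ≤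
      ENNReal.ofReal (L ^ finrank ℝ H) * μHE[finrank ℝ H] (A '' s) := by
    refine muHE_image_le hL0.le (fun x hx y hy => ?_) _
    have := norm_le_insert' (G x - G y) (A x - A y)
    nlinarith [hb x hx y hy, norm_nonneg (A x - A y)]
  have hl : (μHE[finrank ℝ H] : Measure E) (A '' s) ≤
      ENNReal.ofReal (L ^ finrank ℝ H) * μHE[finrank ℝ H] (G '' s) := by
    refine muHE_image_le hL0.le (fun x hx y hy => ?_) _
    have := norm_le_insert (G x - G y) (A x - A y)
    have h4 : L⁻¹ * ‖A x - A y‖ ≤ ‖G x - G y‖ := by nlinarith [hb x hx y hy]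
    rwa [inv_mul_le_iff₀ hL0] at h4
  have hlin : (μHE[finrank ℝ H] : Measure E) (A '' s) = ENNReal.ofReal J₀ * volume s :=
    (A : H →ₗ[ℝ] E).euclideanHausdorffMeasure_image_eq_normDet_mul_volume s
  rw [pow_succ, ENNReal.ofReal_mul (by positivity)]
  constructor
  · refine hu.trans ?_
    rw [mul_assoc, hlin, ← setLIntegral_const,
      ← lintegral_const_mul' (ENNReal.ofReal L) _ ENNReal.ofReal_ne_top]
    refine mul_le_mul_right (setLIntegral_mono' hm fun x hx => ?_) _
    rw [← ENNReal.ofReal_mul hL0.le]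
    exact ENNReal.ofReal_le_ofReal (hs hx).2.2
  · calc _ ≤ ∫⁻ _ in s, ENNReal.ofReal L * ENNReal.ofReal J₀ := by
          refine setLIntegral_mono' hm fun x hx => ?_
          rw [← ENNReal.ofReal_mul hL0.le]
          exact ENNReal.ofReal_le_ofReal (hs hx).2.1
      _ = ENNReal.ofReal L * μHE[finrank ℝ H] (A '' s) := by
          rw [setLIntegral_const, hlin, mul_assoc]
      _ ≤ _ := by
          rw [mul_comm (ENNReal.ofReal (L ^ _)), mul_assoc]
          gcongr

theorem le_of_forall_pow_mul {a b : ℝ≥0∞} (n : ℕ)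
    (h : ∀ L : ℝ, 1 < L → a ≤ ENNReal.ofReal (L ^ n) * b) : a ≤ b := by
  rcases eq_or_ne b ⊤ with rfl | hb
  · exact le_top
  have h1 : Tendsto (fun L : ℝ => ENNReal.ofReal (L ^ n) * b) (𝓝[>] 1) (𝓝 b) := by
    have h2 : Tendsto (fun L : ℝ => ENNReal.ofReal (L ^ n)) (𝓝[>] 1) (𝓝 1) := by
      have : ContinuousAt (fun L : ℝ => ENNReal.ofReal (L ^ n)) 1 :=
        (ENNReal.continuous_ofReal.comp (continuous_pow n)).continuousAt
      simpa using this.tendsto.mono_left nhdsWithin_le_nhds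
    simpa using ENNReal.Tendsto.mul_const h2 (Or.inr hb)
  exact ge_of_tendsto h1 (eventually_nhdsWithin_of_forall h)

/-- the area formula for sets -/
theorem area_set {G : H → E} {O : Set H} (hO : IsOpen O) (hG : ContDiffOn ℝ 1 G O)
    (hinj : InjOn G O) (hD : ∀ x ∈ O, Function.Injective (fderiv ℝ G x)) {S : Set H} (hS : S ⊆ O)
    (hm : MeasurableSet S) : (μHE[finrank ℝ H] : Measure E) (G '' S) =
      ∫⁻ x in S, ENNReal.ofReal (LinearMap.normDet (fderiv ℝ G x : H →ₗ[ℝ] E)) := by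
  have hemb := hG.continuousOn.measurableEmbedding hO.measurableSet hinj
  set μ : Measure H := ((μHE[finrank ℝ H] : Measure E).comap (O.domRestrict G)).map Subtype.val
  have hμ : ∀ s ⊆ O, MeasurableSet s → μ s = μHE[finrank ℝ H] (G '' s) := by
    intro s hs hm
    rw [Measure.map_apply measurable_subtype_coe hm, hemb.comap_apply]
    congr 1
    ext y
    constructor
    · rintro ⟨x, hx, rfl⟩; exact ⟨x, hx, rfl⟩
    · rintro ⟨x, hx, rfl⟩; exact ⟨⟨x, hs hx⟩, hx, rfl⟩
  set ν : Measure H := volume.withDensity fun x =>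
    ENNReal.ofReal (LinearMap.normDet (fderiv ℝ G x : H →ₗ[ℝ] E))
  rw [← hμ S hS hm, ← withDensity_apply _ hm]
  refine le_antisymm (le_of_forall_pow_mul (finrank ℝ H + 1) fun L hL => ?_)
    (le_of_forall_pow_mul (finrank ℝ H + 1) fun L hL => ?_)
  · refine measure_le_of_local (ν := ENNReal.ofReal (L ^ (finrank ℝ H + 1)) • ν)
      (fun x hx => ?_) hS hm
    obtain ⟨W, hW, h⟩ := area_local hO hG hx (hD x hx) hL
    refine ⟨W, hW, fun s hs hsO hm => ?_⟩
    rw [hμ s hsO hm, Measure.smul_apply, withDensity_apply _ hm]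
    exact (h s hs hm).1
  · refine measure_le_of_local (ν := ENNReal.ofReal (L ^ (finrank ℝ H + 1)) • μ)
      (fun x hx => ?_) hS hm
    obtain ⟨W, hW, h⟩ := area_local hO hG hx (hD x hx) hL
    refine ⟨W, hW, fun s hs hsO hm => ?_⟩
    rw [Measure.smul_apply, hμ s hsO hm, withDensity_apply _ hm]
    exact (h s hs hm).2

theorem measurable_normDet_fderiv (G : H → E) :
    Measurable fun x => ENNReal.ofReal (LinearMap.normDet (fderiv ℝ G x : H →ₗ[ℝ] E)) :=
  ENNReal.measurable_ofReal.comp (continuous_normDet.measurable.comp (measurable_fderiv ℝ G))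

/-- the area formula for measures -/
theorem area_map {G : H → E} {O : Set H} (hO : IsOpen O) (hG : ContDiffOn ℝ 1 G O)
    (hinj : InjOn G O) (hD : ∀ x ∈ O, Function.Injective (fderiv ℝ G x)) {S : Set H} (hS : S ⊆ O)
    (hm : MeasurableSet S) : (μHE[finrank ℝ H] : Measure E).restrict (G '' S) =
      ((volume.restrict S).withDensity fun x =>
        ENNReal.ofReal (LinearMap.normDet (fderiv ℝ G x : H →ₗ[ℝ] E))).map G := by
  have hc : ContinuousOn G S := hG.continuousOn.mono hS
  have hae : AEMeasurable G ((volume.restrict S).withDensity fun x =>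
      ENNReal.ofReal (LinearMap.normDet (fderiv ℝ G x : H →ₗ[ℝ] E))) :=
    (hc.aemeasurable hm).mono_ac (withDensity_absolutelyContinuous _ _)
  ext T hT
  have hm2 : MeasurableSet (S ∩ G ⁻¹' T) := by
    have h1 : MeasurableSet ((S.domRestrict G) ⁻¹' T) := hc.domRestrict.measurable hT
    have h2 := (MeasurableEmbedding.subtype_coe hm).measurableSet_image.2 h1
    convert h2 using 1
    ext x
    simp [and_comm]
  rw [Measure.restrict_apply hT, Measure.map_apply_of_aemeasurable hae hT, inter_comm,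
    ← image_inter_preimage, area_set hO hG hinj hD (inter_subset_left.trans hS) hm2,
    ← restrict_withDensity hm, Measure.restrict_apply' hm, inter_comm (G ⁻¹' T),
    withDensity_apply _ hm2]

theorem stArea : StArea E := by
  intro H _ _ _ _ _ G O hO hG hinj hD S hS hm
  have hc : ContinuousOn G S := hG.continuousOn.mono hS
  refine ⟨hm.image_of_continuousOn_injOn hc (hinj.mono hS), fun φ hφ => ?_⟩
  have hae := hc.aemeasurable (μ := volume) hm
  rw [area_map hO hG hinj hD hS hm, lintegral_map' hφ.aemeasurable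
    (hae.mono_ac (withDensity_absolutelyContinuous _ _)),
    lintegral_withDensity_eq_lintegral_mul₀ (measurable_normDet_fderiv G).aemeasurable
      (g := fun a => φ (G a)) (hφ.comp_aemeasurable hae)]
  simp only [Pi.mul_apply, mul_comm]

end Crest.Agent.R246
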