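import Crest.Agent.R246.G1.Lin

/-!
# Row 246, block G1: graph charts of a smooth cone and the area measure in a chart
-/

set_option autoImplicit false
set_option linter.unusedSectionVars false

open MeasureTheory Metric Filter Topology Set Module
open scoped RealInnerProductSpace ENNReal ContDiff Real

noncomputable section

namespace Crest.Agent.R246.G1

variable {E : Type} [NormedAddCommGroup E] [InnerProductSpace ℝ E] [FiniteDimensional ℝ E]
  {C : Set E} {ψ : E → ℝ}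

theorem smc_mem_iff (h : SMC C ψ) {y : E} : y ∈ C ↔ ψ y = 0 := by
  rw [h.closed.mem_iff_infDist_zero ⟨0, h.zero_mem⟩, ← h.abs_eq, abs_eq_zero]

theorem smc_contDiffAt (h : SMC C ψ) {y : E} (hy : y ∈ C) (h0 : y ≠ 0) : ContDiffAt ℝ ∞ ψ y := by
  obtain ⟨U, hU, hCU, hs, -⟩ := h.smooth
  exact hs.contDiffAt (hU.mem_nhds (hCU ⟨hy, h0⟩))

theorem smc_norm (h : SMC C ψ) {y : E} (hy : y ∈ C) (h0 : y ≠ 0) : ‖gradient ψ y‖ = 1 := by
  obtain ⟨U, -, hCU, -, hn⟩ := h.smooth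
  exact hn y (hCU ⟨hy, h0⟩)

theorem smc_euler (h : SMC C ψ) {y : E} (hy : y ∈ C) (h0 : y ≠ 0) : ⟪gradient ψ y, y⟫ = 0 := by
  rw [← fderiv_eq_inner, euler (a := 0) (b := ψ y) (fun t ht => by simp [h.homog t ht y])
    ((smc_contDiffAt h hy h0).differentiableAt (by simp))]
  exact (smc_mem_iff h).1 hy

/-- `C ∩ N` is the graph `G '' O` over `e^⊥` -/
structure Chart (C : Set E) (ψ : E → ℝ) (e : E) (G : (ℝ ∙ e)ᗮ → E) (O : Set (ℝ ∙ e)ᗮ)
    (N : Set E) : Prop where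
  he : ‖e‖ = 1
  openO : IsOpen O
  openN : IsOpen N
  bdd : Bornology.IsBounded N
  zero : (0 : E) ∉ N
  smooth : ∀ y ∈ N, ContDiffAt ℝ ∞ ψ y
  unit : ∀ y ∈ N, ‖gradient ψ y‖ = 1
  half : ∀ y ∈ N, 1 / 2 ≤ ⟪gradient ψ y, e⟫
  c1 : ContDiffOn ℝ 1 G O
  proj : ∀ x ∈ O, pe e (G x) = x
  image : G '' O = C ∩ N

theorem exists_chart (h : SMC C ψ) {p : E} (hy : p ∈ C) (h0 : p ≠ 0) :
    ∃ G O N, Chart C ψ (gradient ψ p) G O N ∧ p ∈ N := by
  set e := gradient ψ p with he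
  have hen : ‖e‖ = 1 := smc_norm h hy h0
  obtain ⟨U₀, hU₀, hCU, hs, hun⟩ := h.smooth
  have hc : ContinuousOn (fun y => ⟪gradient ψ y, e⟫) U₀ := fun y hy =>
    ((contDiffAt_gradient (hs.contDiffAt (hU₀.mem_nhds hy))).continuousAt.inner
      continuousAt_const).continuousWithinAt
  set U := U₀ ∩ (fun y => ⟪gradient ψ y, e⟫) ⁻¹' Ioi (1 / 2) ∩ ({0}ᶜ ∩ ball p 1)
  have hU : IsOpen U := (hc.isOpen_inter_preimage hU₀ isOpen_Ioi).inter
    (isOpen_compl_singleton.inter isOpen_ball)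
  have hyU : p ∈ U := by
    refine ⟨⟨hCU ⟨hy, h0⟩, ?_⟩, h0, mem_ball_self one_pos⟩
    change 1 / 2 < ⟪e, e⟫
    rw [real_inner_self_eq_norm_sq, hen]
    norm_num
  let Ψ : E → E := fun y => y + (ψ y - ⟪e, y⟫) • e
  have hΨs : ContDiffAt ℝ 1 Ψ p :=
    contDiffAt_id.add ((((smc_contDiffAt h hy h0).of_le (by simp)).sub
      (contDiffAt_const.inner ℝ contDiffAt_id)).smul contDiffAt_const)
  have hΨd : HasFDerivAt Ψ (ContinuousLinearEquiv.refl ℝ E : E →L[ℝ] E) p := by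
    have h1 : HasFDerivAt (fun y => ψ y - ⟪e, y⟫) (0 : E →L[ℝ] ℝ) p := by
      refine (((smc_contDiffAt h hy h0).differentiableAt (by simp)).hasFDerivAt.sub
        (innerSL ℝ e).hasFDerivAt).congr_fderiv ?_
      ext v
      simp [he]
    refine ((hasFDerivAt_id p).add (h1.smul_const e)).congr_fderiv ?_
    ext v
    simp
  have hin : ∀ y, ⟪e, Ψ y⟫ = ψ y := fun y => by
    simp only [Ψ, inner_add_right, inner_smul_right, real_inner_self_eq_norm_sq, hen]
    ring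
  let P := hΨs.toOpenPartialHomeomorph Ψ hΨd one_ne_zero
  have hys : p ∈ P.source := hΨs.mem_toOpenPartialHomeomorph_source hΨd one_ne_zero
  have hinv : ContDiffAt ℝ 1 P.symm (Ψ p) := hΨs.to_localInverse hΨd one_ne_zero
  obtain ⟨V, hV, hVs⟩ := hinv.contDiffOn le_rfl (by simp)
  obtain ⟨V', hV'V, hV'o, hyV'⟩ := _root_.mem_nhds_iff.1 hV
  let T : Set E := P.target ∩ P.symm ⁻¹' U ∩ V'
  have hTo : IsOpen T := (P.isOpen_inter_preimage_symm hU).inter hV'o
  let G : (ℝ ∙ e)ᗮ → E := fun x => P.symm x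
  let O : Set (ℝ ∙ e)ᗮ := Subtype.val ⁻¹' T
  have hPG : ∀ x ∈ O, Ψ (G x) = x := fun x hx => P.right_inv hx.1.1
  have hGC : ∀ x ∈ O, ψ (G x) = 0 := fun x hx => by rw [← hin, hPG x hx, inner_coe x]
  refine ⟨G, O, P.source ∩ P ⁻¹' V' ∩ U,
    { he := hen
      openO := hTo.preimage continuous_subtype_val
      openN := (P.isOpen_inter_preimage hV'o).inter hU
      bdd := isBounded_ball.subset fun y hy => hy.2.2.2
      zero := fun h => h.2.2.1 rfl
      smooth := fun y hy => hs.contDiffAt (hU₀.mem_nhds hy.2.1.1)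
      unit := fun y hy => hun y hy.2.1.1
      half := fun y hy => le_of_lt hy.2.1.2
      c1 := (hVs.mono hV'V).comp (ℝ ∙ e)ᗮ.subtypeL.contDiff.contDiffOn fun x hx => hx.2
      proj := fun x hx => ?_
      image := ?_ }, ⟨hys, hyV'⟩, hyU⟩
  · refine Subtype.ext ?_
    rw [coe_pe hen, ← hPG x hx]
    simp only [Ψ, hGC x hx, zero_add, neg_smul, sub_eq_add_neg]
  · ext y
    constructor
    · rintro ⟨x, hx, rfl⟩
      refine ⟨(smc_mem_iff h).2 (hGC x hx), ⟨P.map_target hx.1.1, ?_⟩, hx.1.2⟩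
      change Ψ (G x) ∈ V'
      rw [hPG x hx]
      exact hx.2
    · rintro ⟨hyC, ⟨hys', hyV⟩, hyU'⟩
      have hmem : Ψ y ∈ (ℝ ∙ e)ᗮ := Submodule.mem_orthogonal_singleton_iff_inner_right.2
        (by rw [hin]; exact (smc_mem_iff h).1 hyC)
      have hl : P.symm (Ψ y) = y := P.left_inv hys'
      refine ⟨⟨Ψ y, hmem⟩, ⟨⟨P.map_source hys', ?_⟩, hyV⟩, hl⟩
      change P.symm (Ψ y) ∈ U
      rw [hl]
      exact hyU'

namespace Chart

variable {e : E} {G : (ℝ ∙ e)ᗮ → E} {O : Set (ℝ ∙ e)ᗮ} {N : Set E}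

theorem mem (hc : Chart C ψ e G O N) {x : (ℝ ∙ e)ᗮ} (hx : x ∈ O) : G x ∈ C ∧ G x ∈ N := by
  have : G x ∈ C ∩ N := hc.image ▸ mem_image_of_mem G hx
  exact this

theorem inv (hc : Chart C ψ e G O N) {y : E} (hy : y ∈ C) (hN : y ∈ N) :
    pe e y ∈ O ∧ G (pe e y) = y := by
  obtain ⟨x, hx, rfl⟩ : y ∈ G '' O := hc.image ▸ ⟨hy, hN⟩
  rw [hc.proj x hx]
  exact ⟨hx, rfl⟩

theorem pos (hc : Chart C ψ e G O N) {y : E} (hN : y ∈ N) : 0 < ⟪gradient ψ y, e⟫ :=
  lt_of_lt_of_le (by norm_num) (hc.half y hN)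

theorem bddO (hc : Chart C ψ e G O N) : Bornology.IsBounded O :=
  ((pe e).lipschitz.isBounded_image hc.bdd).subset fun x hx => ⟨G x, (hc.mem hx).2, hc.proj x hx⟩

theorem hasFDerivAt (h : SMC C ψ) (hc : Chart C ψ e G O N) {x : (ℝ ∙ e)ᗮ} (hx : x ∈ O) :
    HasFDerivAt G (gr e (gradient ψ (G x)) ∘L (ℝ ∙ e)ᗮ.subtypeL) x := by
  have hG := ((hc.c1.contDiffAt (hc.openO.mem_nhds hx)).differentiableAt one_ne_zero).hasFDerivAt
  have h1 : pe e ∘L fderiv ℝ G x = ContinuousLinearMap.id ℝ _ := by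
    refine ((pe e).hasFDerivAt.comp x hG).unique ((hasFDerivAt_id x).congr_of_eventuallyEq ?_)
    filter_upwards [hc.openO.mem_nhds hx] with x' hx' using hc.proj x' hx'
  have h2 : fderiv ℝ ψ (G x) ∘L fderiv ℝ G x = 0 := by
    refine (((hc.smooth _ (hc.mem hx).2).differentiableAt (by simp)).hasFDerivAt.comp x hG).unique
      ((hasFDerivAt_const (0 : ℝ) x).congr_of_eventuallyEq ?_)
    filter_upwards [hc.openO.mem_nhds hx] with x' hx' using (smc_mem_iff h).1 (hc.mem hx').1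
  refine hG.congr_fderiv (ContinuousLinearMap.ext fun u => ?_)
  have h3 : fderiv ℝ G x u - ⟪e, fderiv ℝ G x u⟫ • e = u := by
    rw [← coe_pe hc.he]
    exact congrArg Subtype.val (congrArg (fun A => A u) h1)
  have h4 : ⟪gradient ψ (G x), fderiv ℝ G x u⟫ = 0 := by
    rw [← fderiv_eq_inner]
    exact congrArg (fun A => A u) h2
  have h5 := (hc.pos (hc.mem hx).2).ne'
  change _ = gr e _ u
  rw [gr_apply, ← h3, inner_sub_right, h4, real_inner_smul_right, sub_sub, ← add_smul]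
  have : ⟪e, fderiv ℝ G x u⟫ + ⟪gradient ψ (G x), e⟫⁻¹ *
    (0 - ⟪e, fderiv ℝ G x u⟫ * ⟪gradient ψ (G x), e⟫) = 0 := by field_simp; ring
  rw [this, zero_smul, sub_zero]

theorem contA (hc : Chart C ψ e G O N) : ContinuousOn (fun x => ⟪gradient ψ (G x), e⟫⁻¹) O := by
  intro x hx
  refine ContinuousWithinAt.inv₀ ?_ (hc.pos (hc.mem hx).2).ne'
  exact ((contDiffAt_gradient (hc.smooth _ (hc.mem hx).2)).continuousAt.comp_continuousWithinAt
    (hc.c1.continuousOn x hx)).inner continuousWithinAt_const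

variable [MeasurableSpace E] [BorelSpace E] {d : ℕ}

/-- the area measure in a chart -/
theorem restrict_eq (h : SMC C ψ) (hE : finrank ℝ E = d + 1) (hc : Chart C ψ e G O N) :
    (ar d C).restrict N = ((volume.restrict O).withDensity fun x =>
      ENNReal.ofReal ⟪gradient ψ (G x), e⟫⁻¹).map G := by
  have hinj : InjOn G O := fun x hx x' hx' hxx => by rw [← hc.proj x hx, hxx, hc.proj x' hx']
  have hD : ∀ x ∈ O, 0 < LinearMap.normDet (fderiv ℝ G x : (ℝ ∙ e)ᗮ →ₗ[ℝ] E) ∧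
      LinearMap.normDet (fderiv ℝ G x : (ℝ ∙ e)ᗮ →ₗ[ℝ] E) = ⟪gradient ψ (G x), e⟫⁻¹ := by
    intro x hx
    rw [(hc.hasFDerivAt h hx).fderiv,
      normDet_gr hc.he (hc.unit _ (hc.mem hx).2) (hc.pos (hc.mem hx).2)]
    exact ⟨inv_pos.2 (hc.pos (hc.mem hx).2), rfl⟩
  have h1 := area_map hc.openO hc.c1 hinj (fun x hx => LinearMap.ker_eq_bot.1 (by
    by_contra h0
    exact (hD x hx).1.ne' (LinearMap.normDet_eq_zero_iff_ker_ne_bot.2 h0))) Subset.rfl
    hc.openO.measurableSet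
  rw [finrank_orth' hE hc.he, hc.image] at h1
  rw [ar, Measure.restrict_restrict hc.openN.measurableSet, inter_comm, h1]
  congr 1
  refine withDensity_congr_ae ?_
  filter_upwards [ae_restrict_mem hc.openO.measurableSet] with x hx
  rw [(hD x hx).2]

theorem aemeas (hc : Chart C ψ e G O N) : AEMeasurable G ((volume.restrict O).withDensity fun x =>
    ENNReal.ofReal ⟪gradient ψ (G x), e⟫⁻¹) :=
  (hc.c1.continuousOn.aemeasurable hc.openO.measurableSet).mono_ac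
    (withDensity_absolutelyContinuous _ _)

theorem aemeasA (hc : Chart C ψ e G O N) :
    AEMeasurable (fun x => ENNReal.ofReal ⟪gradient ψ (G x), e⟫⁻¹) (volume.restrict O) :=
  (hc.contA.aemeasurable hc.openO.measurableSet).ennreal_ofReal

theorem integral_eq (h : SMC C ψ) (hE : finrank ℝ E = d + 1) (hc : Chart C ψ e G O N) {φ : E → ℝ}
    (hφ : Measurable φ) :
    ∫ y in N, φ y ∂ar d C = ∫ x in O, ⟪gradient ψ (G x), e⟫⁻¹ * φ (G x) := by
  rw [hc.restrict_eq h hE, integral_map hc.aemeas hφ.aestronglyMeasurable,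
    integral_withDensity_eq_integral_toReal_smul₀ hc.aemeasA
      (Eventually.of_forall fun _ => ENNReal.ofReal_lt_top)]
  refine setIntegral_congr_fun hc.openO.measurableSet fun x hx => ?_
  simp only [ENNReal.toReal_ofReal (inv_pos.2 (hc.pos (hc.mem hx).2)).le, smul_eq_mul]

theorem integrableOn_iff (h : SMC C ψ) (hE : finrank ℝ E = d + 1) (hc : Chart C ψ e G O N)
    {φ : E → ℝ} (hφ : Measurable φ) : IntegrableOn φ N (ar d C) ↔
      IntegrableOn (fun x => ⟪gradient ψ (G x), e⟫⁻¹ * φ (G x)) O := by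
  rw [IntegrableOn, hc.restrict_eq h hE, integrable_map_measure hφ.aestronglyMeasurable hc.aemeas,
    integrable_withDensity_iff_integrable_smul₀' hc.aemeasA
      (Eventually.of_forall fun _ => ENNReal.ofReal_lt_top)]
  refine integrableOn_congr_fun (fun x hx => ?_) hc.openO.measurableSet
  simp only [ENNReal.toReal_ofReal (inv_pos.2 (hc.pos (hc.mem hx).2)).le, smul_eq_mul,
    Function.comp]

theorem inv_le_two (hc : Chart C ψ e G O N) {y : E} (hN : y ∈ N) : ⟪gradient ψ y, e⟫⁻¹ ≤ 2 := by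
  rw [inv_le_comm₀ (hc.pos hN) two_pos]
  simpa using hc.half y hN

theorem lt_top (h : SMC C ψ) (hE : finrank ℝ E = d + 1) (hc : Chart C ψ e G O N) :
    ar d C N < ⊤ := by
  have h1 := (hc.integrableOn_iff h hE (φ := fun _ => 1) measurable_const).2 (by
    refine IntegrableOn.of_bound hc.bddO.measure_lt_top
      ((hc.contA.mul continuousOn_const).aestronglyMeasurable hc.openO.measurableSet) 2 ?_
    filter_upwards [ae_restrict_mem hc.openO.measurableSet] with x hx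
    rw [mul_one, Real.norm_of_nonneg (inv_pos.2 (hc.pos (hc.mem hx).2)).le]
    exact hc.inv_le_two (hc.mem hx).2)
  simpa using h1

end Chart

end Crest.Agent.R246.G1
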