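import Crest.Agent.R246.G1.Mass

/-!
# Row 246, block G1: density one at the points of a smooth cone
-/

set_option autoImplicit false
set_option linter.unusedSectionVars false

open MeasureTheory Metric Filter Topology Set Module
open scoped RealInnerProductSpace ENNReal ContDiff Real Pointwise

noncomputable section

namespace Crest.Agent.R246.G1

variable {E : Type} [NormedAddCommGroup E] [InnerProductSpace ℝ E] [FiniteDimensional ℝ E]
  [MeasurableSpace E] [BorelSpace E] {C : Set E} {ψ : E → ℝ} {d : ℕ}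

theorem far_lim {μ : Measure E} {p : E} {Θ : ℝ} (hi : ∀ r, 0 < r → Integrable (gk d p r) μ)
    (hu : ∀ r, 0 < r → th d μ p r ≤ Θ) {N : Set E} (hN : N ∈ 𝓝 p) (hm : MeasurableSet N) :
    Tendsto (fun r => ∫ y in Nᶜ, gk d p r y ∂μ) (𝓝[>] 0) (𝓝 0) := by
  have hΘ : 0 ≤ Θ := (integral_nonneg fun y => (gk_pos d p one_pos y).le).trans (hu 1 one_pos)
  obtain ⟨δ, hδ, hb⟩ := Metric.mem_nhds_iff.1 hN
  refine Metric.tendsto_nhds.2 fun ε hε => ?_
  obtain ⟨L, hL, h⟩ := B2.gk_tail (E := E) d (η := ε / (Θ + 1)) (by positivity)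
  filter_upwards [Ioo_mem_nhdsGT (show 0 < δ / L by positivity)] with r hr
  have h2 : 0 < 2 * r := by linarith [hr.1]
  rw [dist_zero_right, Real.norm_of_nonneg (integral_nonneg fun y => (gk_pos d p hr.1 y).le)]
  calc _ ≤ ∫ y in Nᶜ, ε / (Θ + 1) * gk d p (2 * r) y ∂μ := by
        refine setIntegral_mono_on (hi r hr.1).integrableOn ((hi _ h2).const_mul _).integrableOn
          hm.compl fun y hy => h p r y hr.1 ?_
        have h3 := hr.2
        rw [lt_div_iff₀ (by linarith)] at h3
        have h4 : ¬ ‖y - p‖ < δ := fun h => hy (hb (mem_ball_iff_norm.2 h))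
        linarith
    _ ≤ ε / (Θ + 1) * th d μ p (2 * r) := by
        rw [integral_const_mul]
        exact mul_le_mul_of_nonneg_left (setIntegral_le_integral (hi _ h2)
          (Eventually.of_forall fun y => (gk_pos d p h2 y).le)) (by positivity)
    _ ≤ ε / (Θ + 1) * Θ := mul_le_mul_of_nonneg_left (hu _ h2) (by positivity)
    _ < ε := by
        rw [div_mul_eq_mul_div, div_lt_iff₀ (by linarith)]
        linarith

theorem gk_scale (d : ℕ) (p : E) {r : ℝ} (hr : 0 < r) (y : E) :
    gk d p r y = (r ^ d)⁻¹ * gk d 0 1 (r⁻¹ • (y - p)) := by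
  simp only [gk, sub_zero, norm_smul, norm_inv, Real.norm_of_nonneg hr.le, mul_inv, mul_pow,
    inv_pow, one_pow, mul_one]
  rw [mul_left_comm, mul_assoc]
  congr 3
  ring

theorem near_lim (h : SMC C ψ) (hE : finrank ℝ E = d + 1) {p e : E} (hp : p ∈ C)
    (he : gradient ψ p = e) {G : (ℝ ∙ e)ᗮ → E} {O : Set (ℝ ∙ e)ᗮ} {N : Set E}
    (hc : Chart C ψ e G O N) (hN : p ∈ N) :
    Tendsto (fun r => ∫ y in N, gk d p r y ∂ar d C) (𝓝[>] 0) (𝓝 1) := by
  obtain ⟨hx₀, hGx⟩ := hc.inv hp hN
  set x₀ := pe e p with hx₀'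
  have hH := finrank_orth' hE hc.he
  let f : ℝ → (ℝ ∙ e)ᗮ → ℝ := fun r =>
    O.indicator fun x => ⟪gradient ψ (G x), e⟫⁻¹ * gk d 0 1 (r⁻¹ • (G x - p))
  have h1 : ∀ r, 0 < r → ∫ y in N, gk d p r y ∂ar d C = ∫ z, f r (x₀ + r • z) := by
    intro r hr
    rw [hc.integral_eq h hE (continuous_gk d p r).measurable,
      Measure.integral_comp_smul_of_nonneg volume (fun x => f r (x₀ + x)) r (hR := hr.le),
      integral_add_left_eq_self, integral_indicator hc.openO.measurableSet, hH, smul_eq_mul,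
      ← integral_const_mul]
    simp only [gk_scale d p hr, mul_left_comm]
  have h2 : ∫ z : (ℝ ∙ e)ᗮ, gk d 0 1 z = 1 := hH ▸ integral_gk (0 : (ℝ ∙ e)ᗮ) one_pos
  refine Tendsto.congr' (eventually_nhdsWithin_of_forall fun r hr => (h1 r hr).symm) ?_
  rw [← h2]
  refine tendsto_integral_filter_of_dominated_convergence (fun z => 2 * gk d 0 1 z)
    (Eventually.of_forall fun r => ?_) (eventually_nhdsWithin_of_forall fun r hr => ?_)
    ((integrable_gk d 0 one_pos).const_mul 2) (Eventually.of_forall fun z => ?_)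
  · have hl : Continuous fun z : (ℝ ∙ e)ᗮ => x₀ + r • z := by fun_prop
    have hm := (hc.openO.preimage hl).measurableSet
    simp only [f, ← indicator_comp_right (fun z : (ℝ ∙ e)ᗮ => x₀ + r • z)]
    refine (aestronglyMeasurable_indicator_iff hm).2 (ContinuousOn.aestronglyMeasurable ?_ hm)
    refine ContinuousOn.comp (hc.contA.mul ((continuous_gk d 0 1).comp_continuousOn
      ((hc.c1.continuousOn.sub continuousOn_const).const_smul _))) hl.continuousOn fun z hz => hz
  · refine Eventually.of_forall fun z => ?_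
    have h3 := gk_pos d (0 : (ℝ ∙ e)ᗮ) one_pos z
    by_cases hz : x₀ + r • z ∈ O
    swap
    · simp only [f, indicator_of_notMem hz, norm_zero]
      positivity
    have h4 := hc.pos (hc.mem hz).2
    have h5 := gk_pos d (0 : E) one_pos (r⁻¹ • (G (x₀ + r • z) - p))
    simp only [f, indicator_of_mem hz]
    rw [Real.norm_of_nonneg (by positivity)]
    refine mul_le_mul (hc.inv_le_two (hc.mem hz).2) ?_ h5.le zero_le_two
    have h6 := norm_pe_le e (r⁻¹ • (G (x₀ + r • z) - p))
    rw [map_smul, map_sub, hc.proj _ hz, ← hx₀', add_sub_cancel_left, smul_smul,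
      inv_mul_cancel₀ (ne_of_gt hr), one_smul] at h6
    have := Real.pi_pos
    simp only [gk, sub_zero]
    gcongr
  · have hl : HasDerivAt (fun r : ℝ => x₀ + r • z) z 0 := by
      simpa using ((hasDerivAt_id (0 : ℝ)).smul_const z).const_add x₀
    have hl0 : Tendsto (fun r : ℝ => x₀ + r • z) (𝓝[>] 0) (𝓝 x₀) := by
      simpa using hl.continuousAt.tendsto.mono_left nhdsWithin_le_nhds
    have hee : ⟪e, e⟫ = 1 := by rw [real_inner_self_eq_norm_sq, hc.he, one_pow]
    have h3 := ((hc.hasFDerivAt h hx₀).comp_hasDerivAt_of_eq (0 : ℝ) hl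
      (by simp)).tendsto_slope_zero_right
    have h4 := ((hc.contA.continuousAt (hc.openO.mem_nhds hx₀)).tendsto.comp hl0).mul
      (((continuous_gk d 0 1).tendsto _).comp h3)
    rw [hGx, he, hee, ContinuousLinearMap.comp_apply, gr_apply, Submodule.subtypeL_apply,
      inner_coe z, mul_zero, zero_smul, sub_zero, inv_one, one_mul] at h4
    have h5 : gk d 0 1 (z : E) = gk d 0 1 z := by simp [gk]
    rw [← h5]
    refine h4.congr' ?_
    filter_upwards [hl0.eventually (hc.openO.mem_nhds hx₀)] with r hr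
    simp only [f, indicator_of_mem hr, Function.comp, zero_add, zero_smul, add_zero, hGx]

theorem th_lim (h : SMC C ψ) (hE : finrank ℝ E = d + 1) (hd : 2 ≤ d) {p : E} (hp : p ∈ C)
    (h0 : p ≠ 0) {Θ : ℝ} (hu : ∀ r, 0 < r → th d (ar d C) p r ≤ Θ) :
    Tendsto (th d (ar d C) p) (𝓝[>] 0) (𝓝 1) := by
  obtain ⟨G, O, N, hc, hN⟩ := exists_chart h hp h0
  have := (near_lim h hE hp rfl hc hN).add (far_lim (fun r hr => integrable_gk_ar h hE hd p hr) hu
    (hc.openN.mem_nhds hN) hc.openN.measurableSet)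
  rw [add_zero] at this
  exact this.congr' (eventually_nhdsWithin_of_forall fun r hr =>
    integral_add_compl hc.openN.measurableSet (integrable_gk_ar h hE hd p hr))

theorem mem_support (h : SMC C ψ) (hE : finrank ℝ E = d + 1) (hd : 2 ≤ d) {p : E} (hp : p ∈ C)
    (h0 : p ≠ 0) {Θ : ℝ} (hu : ∀ r, 0 < r → th d (ar d C) p r ≤ Θ) : p ∈ (ar d C).support := by
  by_contra hs
  obtain ⟨U, hU, hU0⟩ := Measure.notMem_support_iff_exists.1 hs
  have h1 := far_lim (fun r hr => integrable_gk_ar h hE hd p hr) hu (interior_mem_nhds.2 hU)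
    isOpen_interior.measurableSet
  rw [Measure.restrict_eq_self_of_ae_mem (s := (interior U)ᶜ)
    (compl_mem_ae_iff.2 (measure_mono_null interior_subset hU0))] at h1
  exact zero_ne_one (tendsto_nhds_unique h1 (th_lim h hE hd hp h0 hu))

end Crest.Agent.R246.G1
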