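import Crest.Agent.R246.G1.Area

/-!
# Row 246, block G1: linear algebra, calculus of `divT`, the divergence theorem
-/

set_option autoImplicit false
set_option linter.unusedSectionVars false

open MeasureTheory Metric Filter Topology Set Module
open scoped RealInnerProductSpace ENNReal ContDiff Real

noncomputable section

namespace Crest.Agent.R246.G1

variable {E : Type} [NormedAddCommGroup E] [InnerProductSpace ℝ E] [FiniteDimensional ℝ E]

theorem rk_apply (a ν v : E) : rk a ν v = ⟪ν, v⟫ • a := rfl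

theorem trc_add (A B : E →L[ℝ] E) : trc (A + B) = trc A + trc B := by simp [trc]

theorem trc_sub (A B : E →L[ℝ] E) : trc (A - B) = trc A - trc B := by simp [trc]

theorem trc_smul (c : ℝ) (A : E →L[ℝ] E) : trc (c • A) = c * trc A := by simp [trc]

theorem trc_id : trc (ContinuousLinearMap.id ℝ E) = finrank ℝ E := by simp [trc]

theorem trc_smulRight (f : E →L[ℝ] ℝ) (a : E) : trc (f.smulRight a) = f a :=
  LinearMap.trace_smulRight (f : E →ₗ[ℝ] ℝ) a

theorem trc_comp_rk (M : E →L[ℝ] E) (a ν : E) : trc (M ∘L rk a ν) = ⟪ν, M a⟫ := by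
  have : M ∘L rk a ν = (innerSL ℝ ν).smulRight (M a) := by
    ext v
    simp [rk_apply]
  rw [this, trc_smulRight]
  rfl

theorem continuous_trc : Continuous (trc : (E →L[ℝ] E) → ℝ) :=
  ((LinearMap.trace ℝ E).comp (ContinuousLinearMap.coeLM ℝ)).continuous_of_finiteDimensional

theorem fderiv_eq_inner (f : E → ℝ) (y v : E) : fderiv ℝ f y v = ⟪gradient f y, v⟫ := by
  simp [gradient]

theorem divT_smul {f : E → ℝ} {X : E → E} {y : E} (w : E) {f' : E →L[ℝ] ℝ}
    (hf : HasFDerivAt f f' y) (hX : DifferentiableAt ℝ X y) :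
    divT (fun y => f y • X y) (y, w) = f y * divT X (y, w) + (f' (X y) - f' w * ⟪w, X y⟫) := by
  have h := (hf.smul hX.hasFDerivAt).fderiv
  simp only [divT]
  rw [show (fun y => f y • X y) = f • X from rfl, h, trc_add, trc_smul, trc_smulRight]
  simp only [_root_.add_apply, _root_.smul_apply,
    ContinuousLinearMap.smulRight_apply, inner_add_right, inner_smul_right]
  ring

theorem divT_add {X Y : E → E} {y : E} (w : E) (hX : DifferentiableAt ℝ X y)
    (hY : DifferentiableAt ℝ Y y) :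
    divT (fun y => X y + Y y) (y, w) = divT X (y, w) + divT Y (y, w) := by
  simp only [divT]
  rw [fderiv_fun_add hX hY, trc_add]
  simp only [_root_.add_apply, inner_add_right]
  ring

theorem divT_sub {X Y : E → E} {y : E} (w : E) (hX : DifferentiableAt ℝ X y)
    (hY : DifferentiableAt ℝ Y y) :
    divT (fun y => X y - Y y) (y, w) = divT X (y, w) - divT Y (y, w) := by
  simp only [divT]
  rw [fderiv_fun_sub hX hY, trc_sub]
  simp only [_root_.sub_apply, inner_sub_right]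
  ring

theorem divT_id (y : E) {w : E} (hw : ‖w‖ = 1) : divT (fun y => y) (y, w) = finrank ℝ E - 1 := by
  simp only [divT]
  rw [fderiv_fun_id, trc_id]
  simp [hw]

theorem divT_congr {X Y : E → E} {y : E} (w : E) (h : X =ᶠ[𝓝 y] Y) :
    divT X (y, w) = divT Y (y, w) := by
  simp only [divT, h.fderiv_eq]

/-- the projection onto `e^⊥` -/
abbrev pe (e : E) : E →L[ℝ] (ℝ ∙ e)ᗮ := (ℝ ∙ e)ᗮ.orthogonalProjectionOnto

theorem coe_pe {e : E} (he : ‖e‖ = 1) (y : E) : (pe e y : E) = y - ⟪e, y⟫ • e := by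
  rw [Submodule.coe_orthogonalProjectionOnto_apply, Submodule.starProjection_orthogonal_val,
    Submodule.starProjection_unit_singleton ℝ he]

theorem pe_coe {e : E} (x : (ℝ ∙ e)ᗮ) : pe e (x : E) = x :=
  Submodule.orthogonalProjectionOnto_mem_subspace_eq_self x

theorem inner_coe {e : E} (x : (ℝ ∙ e)ᗮ) : ⟪e, (x : E)⟫ = 0 :=
  Submodule.mem_orthogonal_singleton_iff_inner_right.1 x.2

theorem norm_pe_le (e y : E) : ‖pe e y‖ ≤ ‖y‖ := Submodule.norm_orthogonalProjectionOnto_apply_le _ y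

/-- differential of a graph over `e^⊥` with normal `ν` -/
def gr (e ν : E) : E →L[ℝ] E := ContinuousLinearMap.id ℝ E - ⟪ν, e⟫⁻¹ • rk e ν

theorem gr_apply (e ν v : E) : gr e ν v = v - (⟪ν, e⟫⁻¹ * ⟪ν, v⟫) • e := by
  simp [gr, rk_apply, smul_smul]

theorem trc_graph {e ν : E} (he : ‖e‖ = 1) (ha : ⟪ν, e⟫ ≠ 0) (M : E →L[ℝ] E) :
    trc (pe e ∘L (M ∘L (gr e ν ∘L (ℝ ∙ e)ᗮ.subtypeL))) = trc M - ⟪ν, e⟫⁻¹ * ⟪ν, M e⟫ := by
  have h1 : trc (pe e ∘L (M ∘L (gr e ν ∘L (ℝ ∙ e)ᗮ.subtypeL))) =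
      trc ((M ∘L (gr e ν ∘L (ℝ ∙ e)ᗮ.subtypeL)) ∘L pe e) :=
    LinearMap.trace_comp_comm' (M ∘L (gr e ν ∘L (ℝ ∙ e)ᗮ.subtypeL)).toLinearMap
      (pe e).toLinearMap
  have h2 : (M ∘L (gr e ν ∘L (ℝ ∙ e)ᗮ.subtypeL)) ∘L pe e = M - ⟪ν, e⟫⁻¹ • (M ∘L rk e ν) := by
    ext v
    simp only [ContinuousLinearMap.comp_apply, Submodule.subtypeL_apply, coe_pe he, gr_apply,
      _root_.sub_apply, _root_.smul_apply, rk_apply]
    rw [← map_smul, ← map_sub]
    congr 1
    rw [inner_sub_right, inner_smul_right, smul_smul, sub_sub, ← add_smul]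
    congr 2
    field_simp
    ring
  rw [h1, h2, trc_sub, trc_smul, trc_comp_rk]

theorem normDet_gr {e ν : E} (he : ‖e‖ = 1) (hν : ‖ν‖ = 1) (ha : 0 < ⟪ν, e⟫) :
    LinearMap.normDet ((gr e ν ∘L (ℝ ∙ e)ᗮ.subtypeL : (ℝ ∙ e)ᗮ →L[ℝ] E) : (ℝ ∙ e)ᗮ →ₗ[ℝ] E) =
      ⟪ν, e⟫⁻¹ := by
  obtain ⟨b⟩ : Nonempty (OrthonormalBasis (Fin (finrank ℝ (ℝ ∙ e)ᗮ)) ℝ (ℝ ∙ e)ᗮ) :=
    ⟨stdOrthonormalBasis ℝ _⟩
  have h1 := LinearMap.normDet_sq_eq_det_gram
    ((gr e ν ∘L (ℝ ∙ e)ᗮ.subtypeL : (ℝ ∙ e)ᗮ →L[ℝ] E) : (ℝ ∙ e)ᗮ →ₗ[ℝ] E) b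
  set w : Fin (finrank ℝ (ℝ ∙ e)ᗮ) → ℝ := fun i => ⟪ν, e⟫⁻¹ * ⟪ν, (b i : E)⟫ with hw
  have h2 : Matrix.gram ℝ (fun i => ((gr e ν ∘L (ℝ ∙ e)ᗮ.subtypeL : (ℝ ∙ e)ᗮ →L[ℝ] E) :
      (ℝ ∙ e)ᗮ →ₗ[ℝ] E) (b i)) = 1 + Matrix.replicateCol Unit w * Matrix.replicateRow Unit w := by
    ext i j
    have h3 : ⟪(b i : E), (b j : E)⟫ = (1 : Matrix _ _ ℝ) i j := by
      rw [← Submodule.coe_inner, Matrix.one_apply]
      exact orthonormal_iff_ite.1 b.orthonormal i j
    have h4 : ∀ (x y : (ℝ ∙ e)ᗮ) (s t : ℝ), ⟪(x : E) - s • e, (y : E) - t • e⟫ =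
        ⟪(x : E), (y : E)⟫ + s * t := by
      intro x y s t
      rw [inner_sub_left, inner_sub_right, inner_sub_right, real_inner_smul_left,
        real_inner_smul_left, real_inner_smul_right, real_inner_smul_right, inner_coe y,
        real_inner_comm e, inner_coe x, real_inner_self_eq_norm_sq, he]
      ring
    rw [Matrix.add_apply, Matrix.mul_apply, ← h3, Finset.univ_unique, Finset.sum_singleton]
    change ⟪gr e ν (b i), gr e ν (b j)⟫ = _
    rw [gr_apply, gr_apply, h4]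
    rfl
  have h5 : ∑ i, ⟪ν, (b i : E)⟫ * ⟪ν, (b i : E)⟫ = 1 - ⟪ν, e⟫ ^ 2 := by
    have h6 := b.sum_inner_mul_inner (pe e ν) (pe e ν)
    rw [Submodule.inner_orthogonalProjectionOnto_eq_of_mem_left (pe e ν), coe_pe he, inner_sub_left,
      real_inner_smul_left, real_inner_self_eq_norm_sq, hν, real_inner_comm ν e] at h6
    rw [show 1 - ⟪ν, e⟫ ^ 2 = 1 ^ 2 - ⟪ν, e⟫ * ⟪ν, e⟫ by ring, ← h6]
    refine Finset.sum_congr rfl fun i _ => ?_
    rw [Submodule.inner_orthogonalProjectionOnto_eq_of_mem_left,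
      Submodule.inner_orthogonalProjectionOnto_eq_of_mem_right, real_inner_comm ν]
  rw [h2, Matrix.det_one_add_replicateCol_mul_replicateRow] at h1
  refine (sq_eq_sq₀ (LinearMap.normDet_nonneg _) (by positivity)).1 ?_
  have h7 : w ⬝ᵥ w = ⟪ν, e⟫⁻¹ ^ 2 * (1 - ⟪ν, e⟫ ^ 2) := by
    rw [← h5, Finset.mul_sum]
    exact Finset.sum_congr rfl fun i _ => by simp only [hw]; ring
  rw [h7] at h1
  refine (show _ = _ from h1).trans ?_
  field_simp
  ring

theorem contDiffAt_gradient {f : E → ℝ} {y : E} (h : ContDiffAt ℝ ∞ f y) :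
    ContDiffAt ℝ ∞ (gradient f) y :=
  (InnerProductSpace.toDual ℝ E).symm.contDiff.contDiffAt.comp y
    (h.fderiv_right (m := ∞) (by simp))

theorem hess_symm {f : E → ℝ} {y : E} (h : ContDiffAt ℝ ∞ f y) (u v : E) :
    ⟪hess f y u, v⟫ = ⟪u, hess f y v⟫ := by
  have hd := ((contDiffAt_gradient h).differentiableAt (by simp)).hasFDerivAt
  have h1 : ∀ u v, ⟪hess f y u, v⟫ = fderiv ℝ (fderiv ℝ f) y u v := by
    intro u v
    have h2 : HasFDerivAt (fderiv ℝ f) ((innerSL ℝ : E →L[ℝ] (E →L[ℝ] ℝ)) ∘L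
        fderiv ℝ (gradient f) y) y := by
      have := (innerSL ℝ : E →L[ℝ] (E →L[ℝ] ℝ)).hasFDerivAt.comp y hd
      refine this.congr_of_eventuallyEq (Eventually.of_forall fun z => ?_)
      ext v
      exact fderiv_eq_inner f z v
    rw [h2.fderiv]
    rfl
  rw [h1, real_inner_comm, h1]
  exact h.isSymmSndFDerivAt (by simp only [minSmoothness_of_isRCLikeNormedField]; norm_cast) u v

theorem hess_nu {f : E → ℝ} {y : E} (h : ContDiffAt ℝ ∞ f y)
    (hu : ∀ᶠ z in 𝓝 y, ‖gradient f z‖ = 1) : hess f y (gradient f y) = 0 := by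
  have hd := ((contDiffAt_gradient h).differentiableAt (by simp)).hasFDerivAt
  have h1 := hd.norm_sq
  have h2 : HasFDerivAt (fun z => ‖gradient f z‖ ^ 2) (0 : E →L[ℝ] ℝ) y :=
    (hasFDerivAt_const (1 : ℝ) y).congr_of_eventuallyEq (hu.mono fun z hz => by simp [hz])
  refine ext_inner_right ℝ fun v => ?_
  have h3 := congrArg (fun A => A v) (h1.unique h2)
  simp only [_root_.smul_apply, ContinuousLinearMap.comp_apply, innerSL_apply_apply,
    _root_.zero_apply, smul_eq_zero] at h3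
  rw [hess_symm h, inner_zero_left]
  simpa [hess] using h3

theorem euler {F : Type} [NormedAddCommGroup F] [NormedSpace ℝ F] {f : E → F} {y : E} {a b : F}
    (hf : ∀ t : ℝ, 0 < t → f (t • y) = a + t • b) (hd : DifferentiableAt ℝ f y) :
    fderiv ℝ f y y = b := by
  have h1 : HasDerivAt (fun t : ℝ => f (t • y)) (fderiv ℝ f y y) 1 := by
    have h2 : HasDerivAt (fun t : ℝ => t • y) y 1 := by
      simpa using (hasDerivAt_id (1 : ℝ)).smul_const y
    have h3 : HasFDerivAt f (fderiv ℝ f y) ((fun t : ℝ => t • y) 1) := by simpa using hd.hasFDerivAt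
    exact h3.comp_hasDerivAt (1 : ℝ) h2
  have h4 : HasDerivAt (fun t : ℝ => f (t • y)) b 1 := by
    have h2 : HasDerivAt (fun t : ℝ => a + t • b) b 1 := by
      simpa using ((hasDerivAt_id (1 : ℝ)).smul_const b).const_add a
    refine h2.congr_of_eventuallyEq ?_
    filter_upwards [lt_mem_nhds (zero_lt_one' ℝ)] with t ht using hf t ht
  exact h1.unique h4

variable [MeasurableSpace E] [BorelSpace E]

/-- the divergence theorem for compactly supported fields -/
theorem integral_div {Y : E → E} (hY : ContDiff ℝ 1 Y) (hc : HasCompactSupport Y) :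
    Integrable (fun x => trc (fderiv ℝ Y x)) ∧ ∫ x, trc (fderiv ℝ Y x) = 0 := by
  have hD := hY.continuous_fderiv one_ne_zero
  have hi : ∀ v, Integrable fun x => fderiv ℝ Y x v := fun v =>
    (hD.clm_apply continuous_const).integrable_of_hasCompactSupport (hc.fderiv_apply ℝ v)
  have h0 : ∀ v, ∫ x, fderiv ℝ Y x v = 0 := by
    intro v
    have := integral_smul_fderiv_eq_neg_fderiv_smul_of_integrable (μ := (volume : Measure E))
      (f := fun _ : E => (1 : ℝ)) (g := Y) (v := v) (by simp) (by simpa using hi v)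
      (by simpa using hY.continuous.integrable_of_hasCompactSupport hc)
      (fun _ _ => differentiableAt_const _) (fun x _ => hY.differentiable one_ne_zero x)
    simpa using this
  set b := stdOrthonormalBasis ℝ E
  have h1 : (fun x => trc (fderiv ℝ Y x)) = fun x => ∑ i, ⟪b i, fderiv ℝ Y x (b i)⟫ := by
    ext x
    exact LinearMap.trace_eq_sum_inner _ b
  rw [h1]
  refine ⟨integrable_finsetSum _ fun i _ => (hi _).const_inner _, ?_⟩
  rw [integral_finsetSum _ fun i _ => (hi _).const_inner _]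
  refine Finset.sum_eq_zero fun i _ => ?_
  rw [integral_inner (hi _), h0, inner_zero_right]

theorem measurable_gradient (f : E → ℝ) : Measurable (gradient f) :=
  (InnerProductSpace.toDual ℝ E).symm.continuous.measurable.comp (measurable_fderiv ℝ f)

theorem measurable_divT (X : E → E) : Measurable (divT X) := by
  have h1 : Continuous fun z : (E →L[ℝ] E) × E => trc z.1 - ⟪z.2, z.1 z.2⟫ :=
    (continuous_trc.comp continuous_fst).sub
      (continuous_snd.inner (continuous_fst.clm_apply continuous_snd))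
  exact h1.measurable.comp (((measurable_fderiv ℝ X).comp measurable_fst).prodMk measurable_snd)

end Crest.Agent.R246.G1
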