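import Crest.Agent.R246.G1.Stat
import Crest.Agent.R246.G1.Dens

/-! Row 246, block G1: final statements (see `R246/Blueprint.lean`). -/

set_option autoImplicit false
set_option linter.unusedSectionVars false

open MeasureTheory Metric Filter Topology Set Module
open scoped RealInnerProductSpace ENNReal ContDiff Real

namespace Crest.Agent.R246

namespace G1

variable {E : Type} [NormedAddCommGroup E] [InnerProductSpace ℝ E] [FiniteDimensional ℝ E]
  [MeasurableSpace E] [BorelSpace E] {C : Set E} {ψ : E → ℝ} {d : ℕ}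

theorem vC_fst (d : ℕ) (C : Set E) (ψ : E → ℝ) : (vC d C ψ).fst = ar d C := by
  rw [vC, Measure.fst_map_prodMk (measurable_gradient ψ), Measure.map_id']

theorem sv0_vC (h : SMC C ψ) (hE : finrank ℝ E = d + 1) (hd : 2 ≤ d) :
    SV0 d (vC d C ψ) ∧ VCone (vC d C ψ) := by
  have hm : Measurable fun y => (y, gradient ψ y) := measurable_id.prodMk (measurable_gradient ψ)
  have hae := ae_ar h.toCCone (show 1 ≤ d by omega)
  refine ⟨⟨?_, fun p r hr => ?_, fun X hX hc => ?_⟩, ?_⟩
  · refine (ae_map_iff hm.aemeasurable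
      (isClosed_eq continuous_snd.norm continuous_const).measurableSet).2 ?_
    exact hae.mono fun y hy => smc_norm h hy.1 hy.2
  · rw [vC_fst]
    exact integrable_gk_ar h hE hd p hr
  · rw [vC, integral_map hm.aemeasurable (measurable_divT X).aestronglyMeasurable]
    refine stat_gen h hE (by omega) (fun y _ _ => hX.contDiffAt) ?_
    obtain ⟨K, hK⟩ := (hX.continuous.norm.mul ((continuous_gk d (0 : E) 1).inv₀
      fun y => (gk_pos d 0 one_pos y).ne')).bounded_above_of_compact_support hc.norm.mul_right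
    refine ((integrable_gk_zero h hE hd one_pos).2.const_mul K).mono'
      (hX.continuous.norm.measurable.div measurable_norm).aestronglyMeasurable
      (Eventually.of_forall fun y => ?_)
    have h1 : ‖X y‖ * (gk d 0 1 y)⁻¹ ≤ K := (le_abs_self _).trans (hK y)
    rw [mul_inv_le_iff₀ (gk_pos d 0 one_pos y)] at h1
    rw [Real.norm_of_nonneg (by positivity), ← mul_div_assoc]
    gcongr
  · refine (ae_map_iff hm.aemeasurable
      (isClosed_eq (continuous_snd.inner continuous_fst) continuous_const).measurableSet).2 ?_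
    exact hae.mono fun y hy => smc_euler h hy.1 hy.2

theorem stSMC (hC : StCone E) : StSMC E := by
  intro d hE hd C ψ h
  obtain ⟨h1, h2⟩ := sv0_vC h hE hd
  have h3 := (hC d hE _ h1 h2).2.2
  have h4 : ∀ p r, 0 < r → th d (ar d C) p r ≤ Th d C := by simpa only [vC_fst, Th] using h3
  exact ⟨⟨h1, by simpa only [vC_fst] using h4⟩, h2, vC_fst d C ψ,
    fun p hp => mem_support h hE hd hp.1 hp.2 (h4 p), fun t ht S => ar_smul h.toCCone d ht S,
    fun p hp h0 => th_lim h hE hd hp h0 (h4 p)⟩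

theorem aesm_ar (h : CCone C) (hd : 1 ≤ d) {f : E → ℝ} (hf : ∀ y ∈ C, y ≠ 0 → ContinuousAt f y) :
    AEStronglyMeasurable f (ar d C) := by
  rw [← Measure.restrict_eq_self_of_ae_mem (s := C \ {0}) (ae_ar h hd)]
  exact ContinuousOn.aestronglyMeasurable (fun y hy => (hf y hy.1 hy.2).continuousWithinAt)
    (h.closed.measurableSet.diff (measurableSet_singleton 0))

theorem hasFDerivAt_norm {y : E} (hy : y ≠ 0) :
    HasFDerivAt (fun z : E => ‖z‖) (innerSL ℝ (‖y‖⁻¹ • y)) y := by
  have h0 := norm_pos_iff.2 hy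
  have h := (hasStrictFDerivAt_norm_sq y).hasFDerivAt.sqrt (by positivity)
  simp only [Real.sqrt_sq (norm_nonneg _)] at h
  refine h.congr_fderiv (ContinuousLinearMap.ext fun v => ?_)
  simp only [_root_.smul_apply, innerSL_apply_apply, real_inner_smul_left, smul_eq_mul,
    nsmul_eq_mul, Nat.cast_ofNat]
  field_simp

theorem stIBP : StIBP E := by
  intro d hE hd C ψ h Y U hU hCU hY hom
  have hd1 : 1 ≤ d := by omega
  have hYc : ∀ y ∈ C, y ≠ 0 → ContDiffAt ℝ 1 Y y := fun y hy h0 =>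
    hY.contDiffAt (hU.mem_nhds (hCU ⟨hy, h0⟩))
  set g : E → ℝ := fun y => ⟪Y y, ‖y‖⁻¹ • y⟫ with hg
  have hgc : ∀ y ∈ C, y ≠ 0 → ContDiffAt ℝ 1 g y := fun y hy h0 =>
    (hYc y hy h0).inner ℝ (((contDiffAt_norm ℝ h0).inv (norm_ne_zero_iff.2 h0)).smul contDiffAt_id)
  set F : E → E := fun y => ‖y‖ • Y y - g y • y with hF
  have hFc : ∀ y ∈ C, y ≠ 0 → ContDiffAt ℝ 1 F y := fun y hy h0 =>
    ((contDiffAt_norm ℝ h0).smul (hYc y hy h0)).sub ((hgc y hy h0).smul contDiffAt_id)
  have hX : ∀ y ∈ C, y ≠ 0 → ContDiffAt ℝ 1 (fun y => gk d 0 1 y • F y) y := fun y hy h0 =>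
    (contDiff_gk d 0 1).contDiffAt.smul (hFc y hy h0)
  obtain ⟨B, hB⟩ := ((isCompact_sphere (0 : E) 1).inter_left h.closed).exists_bound_of_continuousOn
    (f := Y) fun y hy => (hYc y hy.1 (ne_of_mem_sphere hy.2 one_ne_zero)).continuousAt.continuousWithinAt
  have hu : ∀ y : E, y ≠ 0 → ‖‖y‖⁻¹ • y‖ = 1 := fun y hy => norm_smul_inv_norm (𝕜 := ℝ) hy
  rw [← stat_gen h hE hd1 hX ?_]
  · refine integral_congr_ae ((ae_ar h.toCCone hd1).mono fun y hy => ?_)
    have h0 := norm_ne_zero_iff.2 hy.2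
    have hν := smc_euler h hy.1 hy.2
    have hν' : ⟪y, gradient ψ y⟫ = 0 := by rw [real_inner_comm, hν]
    have hYd := (hYc y hy.1 hy.2).differentiableAt one_ne_zero
    have hgd := (hgc y hy.1 hy.2).differentiableAt one_ne_zero
    have h1 : fderiv ℝ g y y = 0 := euler (a := g y) (fun t ht => by
      simp only [hg, hom t ht y, norm_smul, Real.norm_of_nonneg ht.le, smul_smul, smul_zero,
        add_zero]
      congr 2
      field_simp) hgd
    have h2 : ⟪y, F y⟫ = 0 := by
      simp only [hF, hg, inner_sub_right, real_inner_smul_right, real_inner_self_eq_norm_sq,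
        real_inner_comm y (Y y)]
      field_simp
      ring
    beta_reduce
    rw [divT_smul _ (B2.hasGradientAt_gk d 0 1 y).hasFDerivAt
      ((hFc y hy.1 hy.2).differentiableAt one_ne_zero), hF,
      divT_sub (X := fun y => ‖y‖ • Y y) (Y := fun y => g y • y) _
        ((hasFDerivAt_norm hy.2).differentiableAt.smul hYd) (hgd.smul differentiableAt_id),
      divT_smul _ (hasFDerivAt_norm hy.2) hYd,
      divT_smul (X := fun y => y) _ hgd.hasFDerivAt differentiableAt_id,
      divT_id _ (smc_norm h hy.1 hy.2), h1, hν, hE]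
    simp only [InnerProductSpace.toDual_apply_apply, real_inner_smul_left, sub_zero,
      innerSL_apply_apply, hν', hg, real_inner_smul_right, real_inner_comm y (Y y)]
    simp only [hF, hg, real_inner_smul_right, real_inner_comm y (Y y)] at h2
    rw [h2]
    push_cast
    ring
  · refine ((integrable_gk_zero h hE hd one_pos).1.const_mul (2 * B)).mono'
      (aesm_ar h.toCCone hd1 fun y hy h0 => (hX y hy h0).continuousAt.norm.div
        continuous_norm.continuousAt (norm_ne_zero_iff.2 h0))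
      ((ae_ar h.toCCone hd1).mono fun y hy => ?_)
    have h0 := norm_pos_iff.2 hy.2
    have h1 : ‖Y y‖ ≤ B := by
      rw [← hom ‖y‖⁻¹ (inv_pos.2 h0) y]
      exact hB _ ⟨h.smul_mem _ (inv_pos.2 h0) _ hy.1, mem_sphere_zero_iff_norm.2 (hu y hy.2)⟩
    have h2 : ‖g y‖ ≤ B := by
      refine (norm_inner_le_norm (𝕜 := ℝ) _ _).trans ?_
      rwa [hu y hy.2, mul_one]
    have h3 : ‖F y‖ ≤ 2 * B * ‖y‖ := by
      refine (norm_sub_le _ _).trans ?_
      rw [norm_smul, norm_smul, norm_norm]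
      nlinarith
    have h4 := gk_pos d (0 : E) one_pos y
    rw [Real.norm_of_nonneg (by positivity), norm_smul, Real.norm_of_nonneg h4.le, div_le_iff₀ h0]
    nlinarith

theorem stRad (hS : StSMC E) : StRad E := by
  intro d hE hd C ψ h hF
  have hd1 : 1 ≤ d := by omega
  have key : ∀ e : E, ‖e‖ = 1 → ∃ y ∈ C, 0 < ⟪e, y⟫ := by
    intro e he
    by_contra! hle
    refine hF ⟨e, he, fun p hp => ?_⟩
    rcases eq_or_ne p 0 with rfl | h0
    · simp
    have h1 := stIBP d hE hd C ψ h (fun _ => e) univ isOpen_univ (subset_univ _) contDiffOn_const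
      fun _ _ _ => rfl
    simp only [B2.divT_const, mul_zero, zero_sub] at h1
    have hd' : (0 : ℝ) < d - 1 := by
      have : (2 : ℝ) ≤ d := by exact_mod_cast hd
      linarith
    have hae := ae_ar h.toCCone hd1
    rw [integral_eq_zero_iff_of_nonneg_ae] at h1
    · by_contra hne
      have h2 := (Measure.mem_support_iff_forall p).1 ((hS d hE hd C ψ h).2.2.2.1 ⟨hp, h0⟩)
        {y | ⟪e, y⟫ ≠ 0} ((isOpen_ne_fun (continuous_const.inner continuous_id)
          continuous_const).mem_nhds hne)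
      refine h2.ne' (ae_iff.1 ?_)
      filter_upwards [h1, hae] with y hy hy'
      simpa [real_inner_smul_right, (gk_pos d (0 : E) one_pos y).ne', hd'.ne', hy'.2] using hy
    · filter_upwards [hae] with y hy
      refine mul_nonneg (gk_pos d 0 one_pos y).le (neg_nonneg.2 (mul_nonpos_of_nonneg_of_nonpos
        hd'.le ?_))
      rw [real_inner_smul_right]
      exact mul_nonpos_of_nonneg_of_nonpos (by positivity) (hle y hy.1)
    · refine ((integrable_gk_zero h hE hd one_pos).1.mul_const ((d : ℝ) - 1)).mono'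
        (Measurable.aestronglyMeasurable ((continuous_gk d 0 1).measurable.mul
          (measurable_const.mul (measurable_const.inner
            (measurable_norm.inv.smul measurable_id))).neg)) (hae.mono fun y hy => ?_)
      have h3 := norm_inner_le_norm (𝕜 := ℝ) e (‖y‖⁻¹ • y)
      rw [he, show ‖‖y‖⁻¹ • y‖ = 1 from norm_smul_inv_norm (𝕜 := ℝ) hy.2, mul_one] at h3
      rw [norm_mul, norm_neg, norm_mul, Real.norm_of_nonneg (gk_pos d 0 one_pos y).le,
        Real.norm_of_nonneg hd'.le]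
      exact mul_le_mul_of_nonneg_left (mul_le_of_le_one_right hd'.le h3) (gk_pos d 0 one_pos y).le
  refine ⟨key, ?_⟩
  have hlt : ∀ y : E, ‖y‖ = 1 → infDist y C < 1 := by
    intro y hy
    obtain ⟨z, hz, hp⟩ := key y hy
    have hz0 : 0 < ‖z‖ := norm_pos_iff.2 (by rintro rfl; simp at hp)
    refine (infDist_le_dist_of_mem (h.smul_mem (⟪y, z⟫ / ‖z‖ ^ 2) (by positivity) z hz)).trans_lt ?_
    rw [dist_eq_norm, ← sq_lt_one_iff₀ (norm_nonneg _), norm_sub_sq_real, real_inner_smul_right,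
      norm_smul, hy, mul_pow, Real.norm_eq_abs, sq_abs]
    have : 0 < ⟪y, z⟫ ^ 2 / ‖z‖ ^ 2 := by positivity
    have h2 : (⟪y, z⟫ / ‖z‖ ^ 2) ^ 2 * ‖z‖ ^ 2 = ⟪y, z⟫ ^ 2 / ‖z‖ ^ 2 := by field_simp
    have h3 : ⟪y, z⟫ / ‖z‖ ^ 2 * ⟪y, z⟫ = ⟪y, z⟫ ^ 2 / ‖z‖ ^ 2 := by field_simp
    linarith
  rcases (sphere (0 : E) 1).eq_empty_or_nonempty with h0 | h0
  · exact ⟨0, one_pos, fun y hy => absurd (mem_sphere_zero_iff_norm.2 hy) (by simp [h0])⟩
  · obtain ⟨y₀, hy₀, hm⟩ := (isCompact_sphere (0 : E) 1).exists_isMaxOn h0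
      (continuous_infDist_pt C).continuousOn
    exact ⟨_, hlt y₀ (mem_sphere_zero_iff_norm.1 hy₀),
      fun y hy => hm (mem_sphere_zero_iff_norm.2 hy)⟩

end G1

theorem geo (hB : Bas) : Geo :=
  ⟨fun _ _ _ _ _ _ => stArea, fun E _ _ _ _ _ => G1.stSMC (hB.cone E),
    fun _ _ _ _ _ _ => G1.stIBP, fun E _ _ _ _ _ => G1.stRad (G1.stSMC (hB.cone E))⟩

end Crest.Agent.R246
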