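import Crest.Agent.R246.G1.Chart
import Crest.Agent.R246.B2.Ker

/-!
# Row 246, block G1: scaling and integrability for the area measure of a smooth cone
-/

set_option autoImplicit false
set_option linter.unusedSectionVars false

open MeasureTheory Metric Filter Topology Set Module
open scoped RealInnerProductSpace ENNReal ContDiff Real Pointwise

noncomputable section

namespace Crest.Agent.R246.G1

variable {E : Type} [NormedAddCommGroup E] [InnerProductSpace ℝ E] [FiniteDimensional ℝ E]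
  [MeasurableSpace E] [BorelSpace E] {C : Set E} {ψ : E → ℝ} {d : ℕ}

theorem ar_smul (h : CCone C) (d : ℕ) {t : ℝ} (ht : 0 < t) (S : Set E) :
    ar d C ((fun y => t • y) '' S) = ENNReal.ofReal (t ^ d) * ar d C S := by
  have h1 : (fun y => t • y) '' S ∩ C = t • (S ∩ C) := by
    ext y
    constructor
    · rintro ⟨⟨z, hz, rfl⟩, hC⟩
      refine ⟨z, ⟨hz, ?_⟩, rfl⟩
      simpa [smul_smul, inv_mul_cancel₀ ht.ne'] using h.smul_mem t⁻¹ (inv_pos.2 ht) _ hC
    · rintro ⟨z, ⟨hz, hC⟩, rfl⟩
      exact ⟨⟨z, hz, rfl⟩, h.smul_mem t ht z hC⟩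
  rw [ar, Measure.restrict_apply' h.closed.measurableSet,
    Measure.restrict_apply' h.closed.measurableSet, h1,
    Measure.euclideanHausdorffMeasure_smul₀ d ht.ne', ENNReal.smul_def, smul_eq_mul,
    ENNReal.ofReal_pow ht.le, ENNReal.coe_pow, ← Real.enorm_eq_ofReal ht.le]
  rfl

theorem ar_zero (hd : 1 ≤ d) (C : Set E) : ar d C {0} = 0 := by
  have := Measure.nullSingletonClass_hausdorff E (d := (d : ℝ)) (by exact_mod_cast hd)
  refine le_antisymm ((Measure.restrict_le_self _).trans (le_of_eq ?_)) zero_le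
  simp [Measure.euclideanHausdorffMeasure_def]

theorem ae_ar (h : CCone C) (hd : 1 ≤ d) : ∀ᵐ y ∂ar d C, y ∈ C ∧ y ≠ 0 :=
  (ae_restrict_mem h.closed.measurableSet).and (compl_mem_ae_iff.2 (ar_zero hd C))

theorem ar_compact (h : SMC C ψ) (hE : finrank ℝ E = d + 1) {K : Set E} (hK : IsCompact K)
    (h0 : (0 : E) ∉ K) : ar d C K < ⊤ := by
  refine hK.measure_lt_top_of_nhdsWithin fun p hp => ?_
  by_cases hC : p ∈ C
  · obtain ⟨G, O, N, hc, hN⟩ := exists_chart h hC (fun h => h0 (h ▸ hp))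
    exact ⟨N, mem_nhdsWithin_of_mem_nhds (hc.openN.mem_nhds hN), hc.lt_top h hE⟩
  · refine ⟨Cᶜ, mem_nhdsWithin_of_mem_nhds (h.closed.isOpen_compl.mem_nhds hC), ?_⟩
    rw [ar, Measure.restrict_apply' h.closed.measurableSet]
    simp

theorem ar_ball_one (h : SMC C ψ) (hE : finrank ℝ E = d + 1) (hd : 1 ≤ d) :
    ar d C (ball 0 1) < ⊤ := by
  set A : Set E := closedBall 0 1 \ ball 0 (1 / 2)
  have hA : ar d C A < ⊤ :=
    ar_compact h hE ((isCompact_closedBall _ _).diff isOpen_ball) (by simp [A])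
  have hsub : ball (0 : E) 1 ⊆ {0} ∪ ⋃ n : ℕ, (fun y => ((1 / 2 : ℝ) ^ n) • y) '' A := by
    intro y hy
    rcases eq_or_ne y 0 with rfl | h0
    · simp
    obtain ⟨n, h1, h2⟩ := exists_nat_pow_near_of_lt_one (norm_pos_iff.2 h0)
      (mem_ball_zero_iff.1 hy).le (show (0 : ℝ) < 1 / 2 by norm_num) (by norm_num)
    have hp : (0 : ℝ) < (1 / 2) ^ n := by positivity
    refine Or.inr (mem_iUnion.2 ⟨n, ((1 / 2 : ℝ) ^ n)⁻¹ • y, ?_, by
      simp only [smul_smul, mul_inv_cancel₀ hp.ne', one_smul]⟩)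
    simp only [A, Set.mem_sdiff, mem_closedBall_zero_iff, mem_ball_zero_iff, norm_smul, norm_inv,
      Real.norm_of_nonneg hp.le, not_lt]
    rw [inv_mul_le_iff₀ hp, le_inv_mul_iff₀ hp, mul_one, ← pow_succ]
    exact ⟨h2, h1.le⟩
  refine (measure_mono hsub).trans_lt ((measure_union_le _ _).trans_lt ?_)
  rw [ar_zero hd, zero_add]
  refine (measure_iUnion_le _).trans_lt ?_
  have h3 : ∀ n : ℕ, ar d C ((fun y => ((1 / 2 : ℝ) ^ n) • y) '' A) ≤ 2⁻¹ ^ n * ar d C A := by
    intro n
    rw [ar_smul h.toCCone d (by positivity)]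
    gcongr
    have : ((1 / 2 : ℝ) ^ n) ^ d ≤ (1 / 2) ^ n :=
      pow_le_of_le_one (by positivity) (pow_le_one₀ (by norm_num) (by norm_num)) (by omega)
    refine (ENNReal.ofReal_le_ofReal this).trans (le_of_eq ?_)
    rw [ENNReal.ofReal_pow (by norm_num), one_div, ENNReal.ofReal_inv_of_pos two_pos]
    simp
  refine (ENNReal.tsum_le_tsum h3).trans_lt ?_
  rw [ENNReal.tsum_mul_right, ENNReal.tsum_geometric]
  exact ENNReal.mul_lt_top (by simp) hA

theorem map_norm_eq {F : Type} [NormedAddCommGroup F] [MeasurableSpace F] [BorelSpace F]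
    {μ : Measure E} {ν : Measure F} (hν : ∀ R, ν (ball 0 R) ≠ ⊤)
    (h : ∀ R, 0 < R → μ (ball 0 R) = ν (ball 0 R)) : μ.map norm = ν.map norm := by
  have h1 : ∀ R, μ (ball 0 R) = ν (ball 0 R) := fun R => by
    rcases lt_or_ge 0 R with hR | hR
    · exact h R hR
    · simp [ball_eq_empty.2 hR]
  have h2 : ∀ R, μ.map norm (Iio R) = ν (ball 0 R) := fun R => by
    rw [Measure.map_apply measurable_norm measurableSet_Iio, ← h1, ball_zero_eq]
    rfl
  have h3 : ∀ R, ν.map norm (Iio R) = ν (ball 0 R) := fun R => by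
    rw [Measure.map_apply measurable_norm measurableSet_Iio, ball_zero_eq]
    rfl
  refine Measure.ext_of_Ico' _ _ (fun a b _ => ?_) fun a b hab => ?_
  · exact ne_top_of_le_ne_top (hν b) ((measure_mono Ico_subset_Iio_self).trans (h2 b).le)
  · rw [← Iio_sdiff_Iio, measure_sdiff (Iio_subset_Iio hab.le) measurableSet_Iio.nullMeasurableSet
      (by rw [h2]; exact hν a), measure_sdiff (Iio_subset_Iio hab.le)
      measurableSet_Iio.nullMeasurableSet (by rw [h3]; exact hν a), h2, h2, h3, h3]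

theorem integrable_radial (h : SMC C ψ) (hE : finrank ℝ E = d + 1) (hd : 1 ≤ d) {f : ℝ → ℝ}
    (hm : Measurable f) (hf : IntegrableOn (fun s => s ^ (d - 1) * f s) (Ioi 0)) :
    Integrable (fun y => f ‖y‖) (ar d C) := by
  have : Nonempty (Fin d) := ⟨⟨0, hd⟩⟩
  set F := EuclideanSpace ℝ (Fin d)
  have hF : finrank ℝ F = d := by simp [F]
  have h1 : Integrable (fun z : F => f ‖z‖) :=
    (integrable_fun_norm_addHaar (volume : Measure F)).2 (by simpa [hF] using hf)
  set c := ar d C (ball 0 1) / (volume : Measure F) (ball 0 1)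
  have hv : (volume : Measure F) (ball 0 1) ≠ 0 := (measure_ball_pos _ _ one_pos).ne'
  have hc : c ≠ ⊤ := ENNReal.div_ne_top (ar_ball_one h hE hd).ne hv
  have h2 : (ar d C).map norm = (c • (volume : Measure F)).map norm := by
    refine map_norm_eq (fun R => ENNReal.mul_ne_top hc measure_ball_lt_top.ne) fun R hR => ?_
    have h3 : ball (0 : E) R = (fun y => R • y) '' ball 0 1 := by
      have := smul_unitBall_of_pos (E := E) hR
      exact this.symm
    rw [h3, ar_smul h.toCCone d hR, Measure.smul_apply, Measure.addHaar_ball_of_pos _ _ hR, hF,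
      smul_eq_mul, mul_left_comm, ENNReal.div_mul_cancel hv measure_ball_lt_top.ne]
  have h4 := (integrable_map_measure hm.aestronglyMeasurable measurable_norm.aemeasurable).2
    (h1.smul_measure hc)
  rw [← h2] at h4
  exact (integrable_map_measure hm.aestronglyMeasurable measurable_norm.aemeasurable).1 h4

theorem integrable_gk_zero (h : SMC C ψ) (hE : finrank ℝ E = d + 1) (hd : 2 ≤ d) {r : ℝ}
    (hr : 0 < r) : Integrable (gk d 0 r) (ar d C) ∧
      Integrable (fun y => gk d 0 r y / ‖y‖) (ar d C) := by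
  have h1 : ∀ k : ℕ, IntegrableOn (fun s : ℝ => s ^ k *
      ((√(2 * π) * r)⁻¹ ^ d * Real.exp (-s ^ 2 / (2 * r ^ 2)))) (Ioi 0) := by
    intro k
    have := (integrableOn_rpow_mul_exp_neg_mul_sq (b := 1 / (2 * r ^ 2)) (by positivity)
      (s := k) (by linarith [Nat.cast_nonneg (α := ℝ) k])).const_mul ((√(2 * π) * r)⁻¹ ^ d)
    refine IntegrableOn.congr_fun this (fun s _ => ?_) measurableSet_Ioi
    simp only [Real.rpow_natCast]
    rw [mul_left_comm]
    congr 3
    ring
  constructor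
  · have := integrable_radial h hE (by omega) (by fun_prop) (h1 (d - 1))
    refine this.congr (Eventually.of_forall fun y => ?_)
    simp only [gk, sub_zero]
  · have := integrable_radial h hE (by omega)
      (f := fun s => (√(2 * π) * r)⁻¹ ^ d * Real.exp (-s ^ 2 / (2 * r ^ 2)) / s) (by fun_prop)
      ((h1 (d - 2)).congr_fun (fun s hs => by
        have : (s : ℝ) ≠ 0 := ne_of_gt hs
        simp only [show d - 1 = d - 2 + 1 by omega, pow_succ s]
        field_simp) measurableSet_Ioi)
    refine this.congr (Eventually.of_forall fun y => ?_)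
    simp only [gk, sub_zero]

theorem integrable_gk_ar (h : SMC C ψ) (hE : finrank ℝ E = d + 1) (hd : 2 ≤ d) (p : E) {r : ℝ}
    (hr : 0 < r) : Integrable (gk d p r) (ar d C) := by
  obtain ⟨L, hL⟩ := B2.gk_dom d p hr
  refine ((integrable_gk_zero h hE hd (r := 2 * r) (by positivity)).1.const_mul L).mono'
    (continuous_gk d p r).aestronglyMeasurable (Eventually.of_forall fun y => ?_)
  have := gk_pos d p hr y
  rw [Real.norm_of_nonneg this.le]
  refine le_trans ?_ (hL y)
  exact le_mul_of_one_le_left this.le (one_le_pow₀ (by linarith [norm_nonneg (y - p)]))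

end Crest.Agent.R246.G1
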