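import Crest.Agent.R246.G1.Mass

/-!
# Row 246, block G1: first variation of a smooth minimal cone
-/

set_option autoImplicit false
set_option linter.unusedSectionVars false

open MeasureTheory Metric Filter Topology Set Module
open scoped RealInnerProductSpace ENNReal ContDiff Real Pointwise Manifold

noncomputable section

namespace Crest.Agent.R246.G1

variable {E : Type} [NormedAddCommGroup E] [InnerProductSpace ℝ E] [FiniteDimensional ℝ E]
  {C : Set E} {ψ : E → ℝ} {d : ℕ}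

/-- tangential part of `X` divided by `⟪ν, e⟫` -/
def tw (ψ : E → ℝ) (e : E) (X : E → E) (y : E) : E :=
  ⟪gradient ψ y, e⟫⁻¹ • (X y - ⟪gradient ψ y, X y⟫ • gradient ψ y)

theorem tw_div {X : E → E} {y e : E} (hψ : ContDiffAt ℝ ∞ ψ y)
    (hu : ∀ᶠ z in 𝓝 y, ‖gradient ψ z‖ = 1) (hl : lap ψ y = 0) (ha : ⟪gradient ψ y, e⟫ ≠ 0)
    (hX : DifferentiableAt ℝ X y) :
    trc (fderiv ℝ (tw ψ e X) y) - ⟪gradient ψ y, e⟫⁻¹ * ⟪gradient ψ y, fderiv ℝ (tw ψ e X) y e⟫ =
      ⟪gradient ψ y, e⟫⁻¹ * divT X (y, gradient ψ y) := by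
  have hS : HasFDerivAt (gradient ψ) (hess ψ y) y :=
    ((contDiffAt_gradient hψ).differentiableAt (by simp)).hasFDerivAt
  have h1 := hS.inner ℝ hX.hasFDerivAt
  have h2 := (hasDerivAt_inv ha).comp_hasFDerivAt y (hS.inner ℝ (hasFDerivAt_const e y))
  have h3 := (h2.smul (hX.hasFDerivAt.sub (h1.smul hS))).fderiv
  have hn := hess_nu hψ hu
  have hν : ⟪gradient ψ y, gradient ψ y⟫ = 1 := by
    rw [real_inner_self_eq_norm_sq, hu.self_of_nhds, one_pow]
  have hn' : ∀ v, ⟪gradient ψ y, hess ψ y v⟫ = 0 := fun v => by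
    rw [← hess_symm hψ, hn, inner_zero_left]
  have hs : ⟪hess ψ y (X y), e⟫ = ⟪hess ψ y e, X y⟫ := by rw [hess_symm hψ, real_inner_comm]
  change trc (hess ψ y) = 0 at hl
  change fderiv ℝ (tw ψ e X) y = _ at h3
  rw [h3]
  simp only [divT, trc_add, trc_sub, trc_smul, trc_smulRight, hl, _root_.add_apply,
    _root_.sub_apply, _root_.smul_apply, ContinuousLinearMap.smulRight_apply,
    ContinuousLinearMap.comp_apply, ContinuousLinearMap.prod_apply, fderivInnerCLM_apply,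
    inner_add_right, inner_sub_right, real_inner_smul_right, Pi.sub_apply, Pi.smul_apply',
    map_sub, map_smul, hn, hn', hν, hs, inner_zero_left, inner_zero_right, _root_.zero_apply,
    smul_eq_mul, Function.comp]
  field_simp
  ring

theorem contDiffAt_tw {X : E → E} {y e : E} (hψ : ContDiffAt ℝ ∞ ψ y)
    (ha : ⟪gradient ψ y, e⟫ ≠ 0) (hX : ContDiffAt ℝ 1 X y) : ContDiffAt ℝ 1 (tw ψ e X) y := by
  have hg : ContDiffAt ℝ 1 (gradient ψ) y := (contDiffAt_gradient hψ).of_le (by simp)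
  exact ((hg.inner ℝ contDiffAt_const).inv ha).smul (hX.sub ((hg.inner ℝ hX).smul hg))

theorem divT_eq_zero {X : E → E} {y : E} (w : E) (h : y ∉ tsupport X) : divT X (y, w) = 0 := by
  rw [divT_congr w (notMem_tsupport_iff_eventuallyEq.1 h)]
  simp [divT, trc]

variable [MeasurableSpace E] [BorelSpace E]

theorem measurable_divT' (ψ : E → ℝ) (X : E → E) : Measurable fun y => divT X (y, gradient ψ y) :=
  (measurable_divT X).comp (measurable_id.prodMk (measurable_gradient ψ))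

/-- stationarity for the fields supported in `V` -/
def StatOn (d : ℕ) (C : Set E) (ψ : E → ℝ) (V : Set E) : Prop :=
  ∀ X : E → E, (∀ y ∈ C, y ≠ 0 → ContDiffAt ℝ 1 X y) → HasCompactSupport X → tsupport X ⊆ V →
    Integrable (fun y => divT X (y, gradient ψ y)) (ar d C) ∧
      ∫ y, divT X (y, gradient ψ y) ∂ar d C = 0

theorem Chart.statOn {e : E} {G : (ℝ ∙ e)ᗮ → E} {O : Set (ℝ ∙ e)ᗮ} {N : Set E} (h : SMC C ψ)
    (hE : finrank ℝ E = d + 1) (hc : Chart C ψ e G O N) : StatOn d C ψ N := by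
  intro X hX hK hs
  have h0 : ∀ y, y ∉ N → divT X (y, gradient ψ y) = 0 := fun y hy =>
    divT_eq_zero _ fun h => hy (hs h)
  set Y : (ℝ ∙ e)ᗮ → (ℝ ∙ e)ᗮ := O.indicator fun x => pe e (tw ψ e X (G x)) with hY
  set K := pe e '' (tsupport X ∩ C)
  have hKc : IsCompact K := (hK.isCompact.inter_right h.closed).image (pe e).continuous
  have hKO : K ⊆ O := by
    rintro _ ⟨y, hy, rfl⟩
    exact (hc.inv hy.2 (hs hy.1)).1
  have hY0 : ∀ x, x ∉ K → Y x = 0 := by
    intro x hx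
    refine indicator_apply_eq_zero.2 fun hxO => ?_
    have : X (G x) = 0 := image_eq_zero_of_notMem_tsupport fun h =>
      hx ⟨G x, ⟨h, (hc.mem hxO).1⟩, hc.proj x hxO⟩
    simp [tw, this]
  have hY1 : ∀ x, x ∉ K → Y =ᶠ[𝓝 x] fun _ => 0 := fun x hx =>
    (hKc.isClosed.isOpen_compl.eventually_mem hx).mono hY0
  have hY2 : ∀ x ∈ O, Y =ᶠ[𝓝 x] fun x => pe e (tw ψ e X (G x)) := fun x hx =>
    (hc.openO.eventually_mem hx).mono fun x' hx' => indicator_of_mem hx' _
  have htw : ∀ x ∈ O, ContDiffAt ℝ 1 (tw ψ e X) (G x) := fun x hx =>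
    contDiffAt_tw (hc.smooth _ (hc.mem hx).2) (hc.pos (hc.mem hx).2).ne'
      (hX _ (hc.mem hx).1 fun h => hc.zero (h ▸ (hc.mem hx).2))
  have hYs : ContDiff ℝ 1 Y := contDiff_iff_contDiffAt.2 fun x => by
    by_cases hx : x ∈ O
    · exact ((pe e).contDiff.contDiffAt.comp x ((htw x hx).comp x
        (hc.c1.contDiffAt (hc.openO.mem_nhds hx)))).congr_of_eventuallyEq (hY2 x hx)
    · exact contDiffAt_const.congr_of_eventuallyEq (hY1 x fun h => hx (hKO h))
  obtain ⟨hi, hz⟩ := integral_div hYs (HasCompactSupport.intro hKc hY0)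
  have hA : ∀ x ∈ O, trc (fderiv ℝ Y x) =
      ⟪gradient ψ (G x), e⟫⁻¹ * divT X (G x, gradient ψ (G x)) := by
    intro x hx
    have h1 := (pe e).hasFDerivAt.comp x
      (((htw x hx).differentiableAt one_ne_zero).hasFDerivAt.comp x (hc.hasFDerivAt h hx))
    have hN := (hc.mem hx).2
    have h0 : G x ≠ 0 := fun h => hc.zero (h ▸ hN)
    rw [(h1.congr_of_eventuallyEq (hY2 x hx)).fderiv, trc_graph hc.he (hc.pos hN).ne',
      tw_div (hc.smooth _ hN) ((hc.openN.eventually_mem hN).mono hc.unit)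
        (h.minimal _ (hc.mem hx).1 h0) (hc.pos hN).ne'
        ((hX _ (hc.mem hx).1 h0).differentiableAt one_ne_zero)]
  constructor
  · rw [← integrableOn_iff_integrable_of_support_subset (s := N)
      (fun y hy => by_contra fun h => hy (h0 y h)), hc.integrableOn_iff h hE (measurable_divT' ψ X)]
    exact hi.integrableOn.congr_fun hA hc.openO.measurableSet
  · rw [← setIntegral_eq_integral_of_forall_compl_eq_zero h0,
      hc.integral_eq h hE (measurable_divT' ψ X), ← setIntegral_congr_fun hc.openO.measurableSet hA,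
      setIntegral_eq_integral_of_forall_compl_eq_zero, hz]
    intro x hx
    rw [(hY1 x fun h => hx (hKO h)).fderiv_eq]
    simp [trc]

theorem statOn_compl (h : SMC C ψ) : StatOn d C ψ Cᶜ := by
  intro X _ _ hs
  have : (fun y => divT X (y, gradient ψ y)) =ᵐ[ar d C] fun _ => 0 :=
    (ae_restrict_mem h.closed.measurableSet).mono fun y hy => divT_eq_zero _ fun h => hs h hy
  exact ⟨(integrable_zero _ _ _).congr this.symm, by rw [integral_congr_ae this, integral_zero]⟩

theorem StatOn.union (h : SMC C ψ) (hd : 1 ≤ d) {V V' : Set E} (hV : IsOpen V) (hV' : IsOpen V')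
    (h1 : StatOn d C ψ V) (h2 : StatOn d C ψ V') : StatOn d C ψ (V ∪ V') := by
  intro X hX hK hs
  obtain ⟨K₁, K₂, hK₁, hK₂, hKV, hKV', hKK⟩ := hK.isCompact.binary_compact_cover hV hV' hs
  obtain ⟨f, hf0, hf1, -⟩ := exists_contMDiffMap_zero_one_nhds_of_isClosed (n := 1) 𝓘(ℝ, E)
    hV.isClosed_compl hK₁.isClosed (disjoint_compl_left_iff_subset.2 hKV)
  have hf : ContDiff ℝ 1 f := f.contMDiff.contDiff
  have hg : ContDiff ℝ 1 fun y => 1 - f y := contDiff_const.sub hf
  obtain ⟨i1, z1⟩ := h1 (fun y => f y • X y) (fun y hy h0 => hf.contDiffAt.smul (hX y hy h0))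
    hK.smul_left (fun y hy => by_contra fun h => by
      refine notMem_tsupport_iff_eventuallyEq.2 ?_ hy
      filter_upwards [hf0.filter_mono (nhds_le_nhdsSet h)] with z hz
      simp [hz])
  obtain ⟨i2, z2⟩ := h2 (fun y => (1 - f y) • X y) (fun y hy h0 => hg.contDiffAt.smul (hX y hy h0))
    hK.smul_left (fun y hy => by
      have h3 : y ∈ K₁ ∪ K₂ := hKK ▸ tsupport_smul_subset_right _ _ hy
      refine hKV' (h3.resolve_left fun h => notMem_tsupport_iff_eventuallyEq.2 ?_ hy)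
      filter_upwards [hf1.filter_mono (nhds_le_nhdsSet h)] with z hz
      simp [hz])
  have h3 : (fun y => divT X (y, gradient ψ y)) =ᵐ[ar d C] fun y =>
      divT (fun y => f y • X y) (y, gradient ψ y) +
        divT (fun y => (1 - f y) • X y) (y, gradient ψ y) := by
    filter_upwards [ae_ar h.toCCone hd] with y hy
    rw [← divT_add (X := fun y => f y • X y) (Y := fun y => (1 - f y) • X y) _ ((hf.contDiffAt.smul (hX y hy.1 hy.2)).differentiableAt one_ne_zero)
      ((hg.contDiffAt.smul (hX y hy.1 hy.2)).differentiableAt one_ne_zero)]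
    simp only [← add_smul, add_sub_cancel, one_smul]
  exact ⟨(i1.add i2).congr h3.symm, by rw [integral_congr_ae h3, integral_add i1 i2, z1, z2, add_zero]⟩

theorem statOn_zero (h : SMC C ψ) (hE : finrank ℝ E = d + 1) (hd : 1 ≤ d) : StatOn d C ψ {0}ᶜ := by
  intro X hX hK hs
  obtain ⟨V, hV, -, hS⟩ : ∃ V, tsupport X ⊆ V ∧ IsOpen V ∧ StatOn d C ψ V := by
    refine hK.isCompact.induction_on (p := fun s => ∃ V, s ⊆ V ∧ IsOpen V ∧ StatOn d C ψ V)
      ⟨Cᶜ, empty_subset _, h.closed.isOpen_compl, statOn_compl h⟩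
      (fun s t hst ⟨V, h1, h2⟩ => ⟨V, hst.trans h1, h2⟩)
      (fun s t ⟨V, h1, h2, h3⟩ ⟨V', h1', h2', h3'⟩ =>
        ⟨V ∪ V', union_subset_union h1 h1', h2.union h2', h3.union h hd h2 h2' h3'⟩) fun p hp => ?_
    by_cases hC : p ∈ C
    · obtain ⟨G, O, N, hc, hN⟩ := exists_chart h hC (hs hp)
      exact ⟨N, mem_nhdsWithin_of_mem_nhds (hc.openN.mem_nhds hN), N, Subset.rfl, hc.openN,
        hc.statOn h hE⟩
    · exact ⟨Cᶜ, mem_nhdsWithin_of_mem_nhds (h.closed.isOpen_compl.mem_nhds hC), Cᶜ, Subset.rfl,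
        h.closed.isOpen_compl, statOn_compl h⟩
  exact hS X hX hK hV

theorem exists_cutoff : ∃ (φ : ℕ → E → ℝ) (M : ℝ), (∀ n, ContDiff ℝ 1 (φ n)) ∧
    (∀ n, HasCompactSupport (φ n)) ∧ (∀ n, (0 : E) ∉ tsupport (φ n)) ∧ (∀ n y, |φ n y| ≤ 1) ∧
    (∀ n y, y ≠ 0 → ‖fderiv ℝ (φ n) y‖ ≤ M / ‖y‖) ∧
    ∀ y, y ≠ 0 → ∀ᶠ n in atTop, φ n =ᶠ[𝓝 y] fun _ => 1 := by
  let b : ContDiffBump (0 : E) := ⟨1, 2, one_pos, one_lt_two⟩
  have hb : ContDiff ℝ 1 b := b.contDiff
  obtain ⟨M, hM⟩ := (continuous_norm.mul (hb.continuous_fderiv one_ne_zero).norm).bounded_above_of_compact_support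
    (HasCompactSupport.mul_left (b.hasCompactSupport.fderiv ℝ).norm)
  have hs : ∀ t : ℝ, ContDiff ℝ 1 fun y : E => b (t • y) := fun t => hb.comp (contDiff_id.const_smul t)
  have hD : ∀ t : ℝ, 0 < t → ∀ y : E, y ≠ 0 → ‖fderiv ℝ (fun y : E => b (t • y)) y‖ ≤ M / ‖y‖ := by
    intro t ht y hy
    have h1 := (hb.differentiable one_ne_zero (t • y)).hasFDerivAt.comp y
      ((hasFDerivAt_id y).const_smul t)
    rw [show (fun y : E => b (t • y)) = b ∘ HSMul.hSMul t from rfl, h1.fderiv,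
      ContinuousLinearMap.comp_smul, ContinuousLinearMap.comp_id, norm_smul,
      le_div_iff₀ (norm_pos_iff.2 hy)]
    have h2 := (le_abs_self _).trans (hM (t • y))
    simp only [Pi.mul_apply, norm_smul] at h2
    linarith
  have h1 : ∀ z : E, ‖z‖ ≤ 1 → b z = 1 := fun z hz =>
    b.one_of_mem_closedBall (mem_closedBall_zero_iff.2 hz)
  have h0 : ∀ z : E, 2 ≤ ‖z‖ → b z = 0 := fun z hz => b.zero_of_le_dist (by simpa using hz)
  have hp : ∀ n : ℕ, (0 : ℝ) < n + 1 := fun n => by positivity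
  have hn : ∀ (n : ℕ) (y : E), ‖((n : ℝ) + 1)⁻¹ • y‖ = ‖y‖ / (n + 1) := fun n y => by
    rw [norm_smul, norm_inv, Real.norm_of_nonneg (hp n).le, div_eq_inv_mul]
  have hn' : ∀ (n : ℕ) (y : E), ‖((n : ℝ) + 1) • y‖ = (n + 1) * ‖y‖ := fun n y => by
    rw [norm_smul, Real.norm_of_nonneg (hp n).le]
  refine ⟨fun n y => b (((n : ℝ) + 1)⁻¹ • y) - b (((n : ℝ) + 1) • y), 2 * M,
    fun n => (hs _).sub (hs _), fun n => ?_, fun n => ?_, fun n y => ?_, fun n y hy => ?_,
    fun y hy => ?_⟩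
  · refine HasCompactSupport.intro (isCompact_closedBall (0 : E) (2 * (n + 1))) fun y hy => ?_
    rw [mem_closedBall_zero_iff, not_le] at hy
    have : (0 : ℝ) ≤ n := Nat.cast_nonneg n
    beta_reduce
    rw [h0 _ (by rw [hn, le_div_iff₀ (hp n)]; exact hy.le), h0 _ (by rw [hn']; nlinarith), sub_zero]
  · refine notMem_tsupport_iff_eventuallyEq.2 ?_
    filter_upwards [ball_mem_nhds (0 : E) (inv_pos.2 (hp n))] with y hy
    rw [mem_ball_zero_iff, ← one_div, lt_div_iff₀ (hp n)] at hy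
    have : (0 : ℝ) ≤ n := Nat.cast_nonneg n
    have := norm_nonneg y
    rw [h1 _ (by rw [hn, div_le_iff₀ (hp n)]; nlinarith), h1 _ (by rw [hn']; linarith), sub_self]
    rfl
  · have h2 : ∀ z, 0 ≤ b z ∧ b z ≤ 1 := fun z => ⟨b.nonneg, b.le_one⟩
    exact abs_sub_le_iff.2 ⟨by linarith [h2 (((n : ℝ) + 1)⁻¹ • y), h2 (((n : ℝ) + 1) • y)],
      by linarith [h2 (((n : ℝ) + 1)⁻¹ • y), h2 (((n : ℝ) + 1) • y)]⟩
  · rw [fderiv_fun_sub ((hs _).differentiable one_ne_zero y) ((hs _).differentiable one_ne_zero y)]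
    refine (norm_sub_le _ _).trans ?_
    rw [two_mul, add_div]
    exact add_le_add (hD _ (inv_pos.2 (hp n)) y hy) (hD _ (hp n) y hy)
  · have hy' := norm_pos_iff.2 hy
    filter_upwards [tendsto_natCast_atTop_atTop.eventually_ge_atTop ‖y‖,
      tendsto_natCast_atTop_atTop.eventually_ge_atTop (4 / ‖y‖)] with n h2 h3
    filter_upwards [continuous_norm.continuousAt.eventually (lt_mem_nhds (half_lt_self hy')),
      continuous_norm.continuousAt.eventually (gt_mem_nhds (lt_add_one ‖y‖))] with z h4 h5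
    rw [div_le_iff₀ hy'] at h3
    rw [h1 _ (by rw [hn, div_le_iff₀ (hp n)]; linarith), h0 _ (by rw [hn']; nlinarith), sub_zero]

/-- first variation formula for fields which are `C¹` near the cone -/
theorem stat_gen (h : SMC C ψ) (hE : finrank ℝ E = d + 1) (hd : 1 ≤ d) {X : E → E}
    (hX : ∀ y ∈ C, y ≠ 0 → ContDiffAt ℝ 1 X y) (hi : Integrable (fun y => ‖X y‖ / ‖y‖) (ar d C)) :
    ∫ y, divT X (y, gradient ψ y) ∂ar d C = 0 := by
  by_cases hI : Integrable (fun y => divT X (y, gradient ψ y)) (ar d C)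
  swap
  · exact integral_undef hI
  obtain ⟨φ, M, hφ, hc, h0, h1, hD, hl⟩ := exists_cutoff (E := E)
  have hS := fun n => statOn_zero h hE hd (fun y => φ n y • X y)
    (fun y hy h0 => (hφ n).contDiffAt.smul (hX y hy h0)) (hc n).smul_right
    (fun y hy hy0 => h0 n (hy0 ▸ tsupport_smul_subset_left _ _ hy))
  have hT := tendsto_integral_of_dominated_convergence (μ := ar d C)
    (F := fun n y => divT (fun y => φ n y • X y) (y, gradient ψ y))
    (f := fun y => divT X (y, gradient ψ y))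
    (fun y => ‖divT X (y, gradient ψ y)‖ + 2 * M * (‖X y‖ / ‖y‖))
    (fun n => (hS n).1.aestronglyMeasurable) (hI.norm.add (hi.const_mul _)) (fun n => ?_) ?_
  · simp only [fun n => (hS n).2] at hT
    exact tendsto_nhds_unique hT tendsto_const_nhds
  · filter_upwards [ae_ar h.toCCone hd] with y hy
    rw [divT_smul _ ((hφ n).differentiable one_ne_zero y).hasFDerivAt
      ((hX y hy.1 hy.2).differentiableAt one_ne_zero)]
    have hν := smc_norm h hy.1 hy.2
    have h2 : ∀ v, ‖fderiv ℝ (φ n) y v‖ ≤ M / ‖y‖ * ‖v‖ := fun v =>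
      (fderiv ℝ (φ n) y).le_of_opNorm_le (hD n y hy.2) v
    have h3 := norm_inner_le_norm (𝕜 := ℝ) (gradient ψ y) (X y)
    have h4 := h2 (gradient ψ y)
    rw [hν, mul_one] at h4
    rw [hν, one_mul] at h3
    refine (norm_add_le _ _).trans (add_le_add ?_ ((norm_sub_le _ _).trans ?_))
    · rw [norm_mul]
      exact mul_le_of_le_one_left (norm_nonneg _) (h1 n y)
    · rw [norm_mul]
      have h5 := mul_le_mul h4 h3 (norm_nonneg _) ((norm_nonneg _).trans h4)
      calc _ ≤ M / ‖y‖ * ‖X y‖ + M / ‖y‖ * ‖X y‖ := add_le_add (h2 _) h5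
        _ = _ := by ring
  · filter_upwards [ae_ar h.toCCone hd] with y hy
    refine tendsto_const_nhds.congr' ((hl y hy.2).mono fun n hn => divT_congr _ ?_)
    filter_upwards [hn] with z hz
    simp [hz]

end Crest.Agent.R246.G1
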